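import Mathlib.GroupTheory.Subgroup.Centralizer
import Mathlib.GroupTheory.Commutator.Basic
import Mathlib.Tactic.Abel
import Mathlib.Tactic.LinearCombination
import Mathlib.Tactic.Group

/-!
Calculus of inhomogeneous 3-cocycles with trivial coefficients: torus values on commuting
triples, slant products and the central extension attached to a 2-cocycle.
-/

set_option autoImplicit false

namespace Crest.Agent.R171

variable {G : Type*} [Group G] {M : Type*} [AddCommGroup M]

/-- 3-cocycle identity (trivial coefficients). -/
def IsCocycle3 (f : G → G → G → M) : Prop :=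
  ∀ a b c d, f b c d - f (a * b) c d + f a (b * c) d - f a b (c * d) + f a b c = 0

/-- 2-cocycle identity (trivial coefficients). -/
def IsCocycle2 (φ : G → G → M) : Prop :=
  ∀ a b c, φ b c - φ (a * b) c + φ a (b * c) - φ a b = 0

/-- The value of a 3-cochain on the torus cycle of a triple. -/
def tor (f : G → G → G → M) (a b c : G) : M :=
  f a b c - f a c b - f b a c + f b c a + f c a b - f c b a

/-- Slant product of a 3-cochain with an element. -/
def slant (f : G → G → G → M) (k g h : G) : M :=
  f g h k - f g k h + f k g h

theorem tor_eq_slant (f : G → G → G → M) (a b c : G) :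
    tor f a b c = slant f c a b - slant f c b a := by
  simp only [tor, slant]; abel

theorem tor_swap12 (f : G → G → G → M) (a b c : G) : tor f a b c = - tor f b a c := by
  simp only [tor]; abel

theorem tor_swap23 (f : G → G → G → M) (a b c : G) : tor f a b c = - tor f a c b := by
  simp only [tor]; abel

theorem tor_swap13 (f : G → G → G → M) (a b c : G) : tor f a b c = - tor f c b a := by
  simp only [tor]; abel

theorem tor_rot (f : G → G → G → M) (a b c : G) : tor f a b c = tor f b c a := by
  simp only [tor]; abel

theorem slant_cocycle {f : G → G → G → M} (hf : IsCocycle3 f) {k a b c : G}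
    (ha : Commute a k) (hb : Commute b k) (hc : Commute c k) :
    slant f k b c - slant f k (a * b) c + slant f k a (b * c) - slant f k a b = 0 := by
  have h1 := hf a b c k
  have h2 := hf a b k c
  have h3 := hf a k b c
  have h4 := hf k a b c
  rw [hc.eq] at h1
  rw [hb.eq] at h2
  rw [ha.eq] at h3
  simp only [slant]
  linear_combination (norm := abel1) h1 - h2 + h3 - h4

theorem tor_mul_left {f : G → G → G → M} (hf : IsCocycle3 f) {a a' b c : G}
    (hab : Commute a b) (hac : Commute a c) (hab' : Commute a' b) (hac' : Commute a' c)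
    (hbc : Commute b c) :
    tor f (a * a') b c = tor f a b c + tor f a' b c := by
  have h1 := slant_cocycle hf hac hac' hbc
  have h2 := slant_cocycle hf hac hbc hac'
  have h3 := slant_cocycle hf hbc hac hac'
  rw [hab'.eq] at h1
  rw [hab.eq] at h2
  simp only [tor_eq_slant]
  linear_combination (norm := abel1) - h1 + h2 - h3

theorem tor_mul_mid {f : G → G → G → M} (hf : IsCocycle3 f) {a b b' c : G}
    (hab : Commute a b) (hab' : Commute a b') (hac : Commute a c) (hbc : Commute b c)
    (hbc' : Commute b' c) :
    tor f a (b * b') c = tor f a b c + tor f a b' c := by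
  rw [tor_swap12, tor_mul_left hf hab.symm hbc hab'.symm hbc' hac, tor_swap12 f a b,
    tor_swap12 f a b']
  abel

theorem tor_mul_right {f : G → G → G → M} (hf : IsCocycle3 f) {a b c c' : G}
    (hab : Commute a b) (hac : Commute a c) (hac' : Commute a c') (hbc : Commute b c)
    (hbc' : Commute b c') :
    tor f a b (c * c') = tor f a b c + tor f a b c' := by
  rw [← tor_rot f (c * c'), tor_mul_left hf hac.symm hbc.symm hac'.symm hbc'.symm hab,
    tor_rot f c, tor_rot f c']

theorem tor_one_left {f : G → G → G → M} (hf : IsCocycle3 f) {b c : G} (hbc : Commute b c) :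
    tor f 1 b c = 0 := by
  have h := tor_mul_left hf (Commute.one_left b) (Commute.one_left c) (Commute.one_left b)
    (Commute.one_left c) hbc
  rw [one_mul] at h
  linear_combination (norm := abel1) - h

theorem tor_inv_left {f : G → G → G → M} (hf : IsCocycle3 f) {a b c : G}
    (hab : Commute a b) (hac : Commute a c) (hbc : Commute b c) :
    tor f a⁻¹ b c = - tor f a b c := by
  have h := tor_mul_left hf hab hac hab.inv_left hac.inv_left hbc
  rw [mul_inv_cancel, tor_one_left hf hbc] at h
  linear_combination (norm := abel1) - h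

theorem tor_inv_mid {f : G → G → G → M} (hf : IsCocycle3 f) {a b c : G}
    (hab : Commute a b) (hac : Commute a c) (hbc : Commute b c) :
    tor f a b⁻¹ c = - tor f a b c := by
  rw [tor_swap12, tor_inv_left hf hab.symm hbc hac, tor_swap12 f a b]

/-- On the common centraliser of `b` and `c`, the torus value kills commutators. -/
theorem tor_commutator_left {f : G → G → G → M} (hf : IsCocycle3 f) {a a' b c : G}
    (hab : Commute a b) (hac : Commute a c) (hab' : Commute a' b) (hac' : Commute a' c)
    (hbc : Commute b c) :
    tor f (a * a' * a⁻¹ * a'⁻¹) b c = 0 := by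
  rw [tor_mul_left hf ((hab.mul_left hab').mul_left hab.inv_left)
    ((hac.mul_left hac').mul_left hac.inv_left) hab'.inv_left hac'.inv_left hbc,
    tor_mul_left hf (hab.mul_left hab') (hac.mul_left hac') hab.inv_left hac.inv_left hbc,
    tor_mul_left hf hab hac hab' hac' hbc, tor_inv_left hf hab hac hbc,
    tor_inv_left hf hab' hac' hbc]
  abel

/-- The central extension attached to a 2-cocycle. -/
@[ext]
structure CExt {C : Type*} [Group C] (φ : C → C → M) (hφ : IsCocycle2 φ) where
  m : M
  g : C

namespace CExt

variable {C : Type*} [Group C] {φ : C → C → M} {hφ : IsCocycle2 φ}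

theorem one_left (hφ : IsCocycle2 φ) (g : C) : φ 1 g = φ 1 1 := by
  have h := hφ 1 1 g
  simp only [one_mul] at h
  linear_combination (norm := abel1) h

theorem one_right (hφ : IsCocycle2 φ) (g : C) : φ g 1 = φ 1 1 := by
  have h := hφ g 1 1
  simp only [mul_one] at h
  linear_combination (norm := abel1) - h

instance : Mul (CExt φ hφ) := ⟨fun x y => ⟨x.m + y.m + φ x.g y.g, x.g * y.g⟩⟩
instance : One (CExt φ hφ) := ⟨⟨- φ 1 1, 1⟩⟩
instance : Inv (CExt φ hφ) := ⟨fun x => ⟨- x.m - φ x.g⁻¹ x.g - φ 1 1, x.g⁻¹⟩⟩

theorem mul_m (x y : CExt φ hφ) : (x * y).m = x.m + y.m + φ x.g y.g := rfl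
theorem mul_g (x y : CExt φ hφ) : (x * y).g = x.g * y.g := rfl
theorem one_m : (1 : CExt φ hφ).m = - φ 1 1 := rfl
theorem one_g : (1 : CExt φ hφ).g = 1 := rfl
theorem inv_m (x : CExt φ hφ) : (x⁻¹).m = - x.m - φ x.g⁻¹ x.g - φ 1 1 := rfl
theorem inv_g (x : CExt φ hφ) : (x⁻¹).g = x.g⁻¹ := rfl

instance : Group (CExt φ hφ) where
  mul_assoc x y z := by
    ext
    · simp only [mul_m, mul_g]
      linear_combination (norm := abel1) - hφ x.g y.g z.g
    · simp only [mul_g, mul_assoc]
  one_mul x := by
    ext
    · simp only [mul_m, one_m, one_g, one_left hφ]; abel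
    · simp only [mul_g, one_g, one_mul]
  mul_one x := by
    ext
    · simp only [mul_m, one_m, one_g, one_right hφ]; abel
    · simp only [mul_g, one_g, mul_one]
  inv_mul_cancel x := by
    ext
    · simp only [mul_m, one_m, inv_m, inv_g]; abel
    · simp only [mul_g, one_g, inv_g, inv_mul_cancel]

/-- The projection of the extension. -/
def proj (φ : C → C → M) (hφ : IsCocycle2 φ) : CExt φ hφ →* C where
  toFun x := x.g
  map_one' := rfl
  map_mul' _ _ := rfl

theorem proj_surjective : Function.Surjective (proj φ hφ) := fun g => ⟨⟨0, g⟩, rfl⟩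

theorem proj_central (z : CExt φ hφ) (hz : proj φ hφ z = 1) (y : CExt φ hφ) : Commute z y := by
  have hz' : z.g = 1 := hz
  change z * y = y * z
  ext
  · simp only [mul_m, hz', one_left hφ, one_right hφ]; abel
  · simp only [mul_g, hz', one_mul, mul_one]

theorem symm_of_commute {x y : CExt φ hφ} (h : Commute x y) :
    φ (proj φ hφ x) (proj φ hφ y) = φ (proj φ hφ y) (proj φ hφ x) := by
  have h1 := congrArg CExt.m h.eq
  simp only [mul_m] at h1
  change φ x.g y.g = φ y.g x.g
  linear_combination (norm := abel1) h1

end CExt

/-- The slant product as a 2-cocycle on the centraliser. -/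
def slantC (f : G → G → G → M) (k : G) (g h : Subgroup.centralizer ({k} : Set G)) : M :=
  slant f k g h

theorem commute_of_mem_centralizer {k : G} (g : Subgroup.centralizer ({k} : Set G)) :
    Commute (g : G) k := by
  have := g.2 k rfl
  exact this.symm

theorem slantC_cocycle {f : G → G → G → M} (hf : IsCocycle3 f) (k : G) :
    IsCocycle2 (slantC f k) := fun a b c =>
  slant_cocycle hf (commute_of_mem_centralizer a) (commute_of_mem_centralizer b)
    (commute_of_mem_centralizer c)

end Crest.Agent.R171
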