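import Crest.Prelude.Def_Steinberg
import Crest.Agent.R171.Cocycle

/-!
From the cocycle calculus to the library's group homology.
-/

set_option autoImplicit false

namespace Crest.Agent.R171

open CategoryTheory groupHomology Finsupp

variable {G H : Type} [Group G] [Group H]

theorem d3_single (a b c d : G) :
    inhomogeneousChains.d (Rep.trivial ℤ G ℤ) 3 (single ![a, b, c, d] (1 : ℤ)) =
      single ![b, c, d] (1 : ℤ) - single ![a * b, c, d] (1 : ℤ) + single ![a, b * c, d] (1 : ℤ)
        - single ![a, b, c * d] (1 : ℤ) + single ![a, b, c] (1 : ℤ) := by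
  rw [inhomogeneousChains.d_single, Fin.sum_univ_four]
  have e0 : (fun i : Fin 3 => (![a, b, c, d] : Fin 4 → G) i.succ) = ![b, c, d] := by
    ext i; fin_cases i <;> rfl
  have e1 : Fin.contractNth (0 : Fin 4) (· * ·) ![a, b, c, d] = ![a * b, c, d] := by
    ext i; fin_cases i <;> rfl
  have e2 : Fin.contractNth (1 : Fin 4) (· * ·) ![a, b, c, d] = ![a, b * c, d] := by
    ext i; fin_cases i <;> rfl
  have e3 : Fin.contractNth (2 : Fin 4) (· * ·) ![a, b, c, d] = ![a, b, c * d] := by
    ext i; fin_cases i <;> rfl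
  have e4 : Fin.contractNth (3 : Fin 4) (· * ·) ![a, b, c, d] = ![a, b, c] := by
    ext i; fin_cases i <;> rfl
  rw [e0, e1, e2, e3, e4]
  simp only [Representation.trivial_apply, Rep.trivial_ρ_apply]
  norm_num
  abel

theorem d2_single (a b c : G) :
    inhomogeneousChains.d (Rep.trivial ℤ G ℤ) 2 (single ![a, b, c] (1 : ℤ)) =
      single ![b, c] (1 : ℤ) - single ![a * b, c] (1 : ℤ) + single ![a, b * c] (1 : ℤ)
        - single ![a, b] (1 : ℤ) := by
  rw [inhomogeneousChains.d_single, Fin.sum_univ_three]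
  have e0 : (fun i : Fin 2 => (![a, b, c] : Fin 3 → G) i.succ) = ![b, c] := by
    ext i; fin_cases i <;> rfl
  have e1 : Fin.contractNth (0 : Fin 3) (· * ·) ![a, b, c] = ![a * b, c] := by
    ext i; fin_cases i <;> rfl
  have e2 : Fin.contractNth (1 : Fin 3) (· * ·) ![a, b, c] = ![a, b * c] := by
    ext i; fin_cases i <;> rfl
  have e3 : Fin.contractNth (2 : Fin 3) (· * ·) ![a, b, c] = ![a, b] := by
    ext i; fin_cases i <;> rfl
  rw [e0, e1, e2, e3]
  simp only [Representation.trivial_apply, Rep.trivial_ρ_apply]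
  norm_num
  abel

/-- The universal 3-cochain. -/
noncomputable def uc (a b c : G) : (Fin 3 → G) →₀ ℤ := single ![a, b, c] 1

theorem d_tor {a b c : G} (hab : Commute a b) (hac : Commute a c) (hbc : Commute b c) :
    inhomogeneousChains.d (Rep.trivial ℤ G ℤ) 2 (tor uc a b c) = 0 := by
  simp only [tor, uc, map_add, map_sub]
  erw [d2_single, d2_single, d2_single, d2_single, d2_single, d2_single]
  rw [hab.eq, hac.eq, hbc.eq]
  abel

theorem not_injective_map (p : G →* H)
    (φ : Rep.trivial ℤ G ℤ ⟶ Rep.res p (Rep.trivial ℤ H ℤ)) (hφ : φ.hom (1 : ℤ) = (1 : ℤ))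
    {a b c : G} (hab : Commute a b) (hac : Commute a c) (hbc : Commute b c)
    {T : Type} [AddCommGroup T] {κ : G → G → G → T} (hκ : IsCocycle3 κ) (hne : tor κ a b c ≠ 0)
    (hz : ∀ (M : Type) [AddCommGroup M] (f : H → H → H → M), IsCocycle3 f →
      tor f (p a) (p b) (p c) = 0) :
    ¬ Function.Injective (groupHomology.map p φ 3).hom := by
  intro hinj
  have hd : (inhomogeneousChains (Rep.trivial ℤ G ℤ)).d 3 2 (tor uc a b c) = 0 := by
    rw [inhomogeneousChains.d_def]; exact d_tor hab hac hbc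
  let z : cycles (Rep.trivial ℤ G ℤ) 3 := cyclesMk 3 2 (by simp) (tor uc a b c) hd
  have hzi : iCycles _ 3 z = tor uc a b c := iCycles_mk _ _ _
  -- the image class vanishes
  have h0 : (groupHomology.map p φ 3).hom (π _ 3 z) = 0 := by
    have h1 : (groupHomology.map p φ 3).hom (π _ 3 z) = π _ 3 (cyclesMap p φ 3 z) :=
      π_map_apply p φ 3 z
    let N : Submodule ℤ ((Fin 3 → H) →₀ ℤ) :=
      LinearMap.range (inhomogeneousChains.d (Rep.trivial ℤ H ℤ) 3).hom
    have hf : IsCocycle3 (fun a b c : H => N.mkQ (uc a b c)) := by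
      intro a b c d
      simp only [← map_add, ← map_sub, uc]
      rw [Submodule.mkQ_apply, Submodule.Quotient.mk_eq_zero]
      exact ⟨_, d3_single a b c d⟩
    have h2 := hz _ _ hf
    simp only [tor, ← map_add, ← map_sub] at h2
    rw [Submodule.mkQ_apply, Submodule.Quotient.mk_eq_zero] at h2
    obtain ⟨w, hw⟩ := h2
    have h3 : cyclesMap p φ 3 z = toCycles _ 4 3 w := by
      apply (ModuleCat.mono_iff_injective (iCycles (Rep.trivial ℤ H ℤ) 3)).1 inferInstance
      have e1 : iCycles _ 3 (cyclesMap p φ 3 z) = (chainsMap p φ).f 3 (iCycles _ 3 z) := by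
        rw [← ModuleCat.comp_apply, ← ModuleCat.comp_apply, HomologicalComplex.cyclesMap_i]
      have e2 : iCycles _ 3 (toCycles (Rep.trivial ℤ H ℤ) 4 3 w) =
          (inhomogeneousChains (Rep.trivial ℤ H ℤ)).d 4 3 w := by
        rw [← ModuleCat.comp_apply, HomologicalComplex.toCycles_i]
      have e3 : ∀ a b c : G, (chainsMap p φ).f 3 (uc a b c) = uc (p a) (p b) (p c) := by
        intro a b c
        have : (p ∘ ![a, b, c]) = ![p a, p b, p c] := by ext i; fin_cases i <;> rfl
        simp only [uc]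
        erw [chainsMap_f_single]
        rw [this, hφ]
      rw [e1, e2, hzi, inhomogeneousChains.d_def]
      erw [hw]
      simp only [tor, map_add, map_sub]
      erw [e3, e3, e3, e3, e3, e3]
    have h6 : toCycles (Rep.trivial ℤ H ℤ) 4 3 ≫ π (Rep.trivial ℤ H ℤ) 3 = 0 :=
      (inhomogeneousChains (Rep.trivial ℤ H ℤ)).toCycles_comp_homologyπ 4 3
    rw [h1, h3, ← ModuleCat.comp_apply, h6]
    rfl
  have h4 : π _ 3 z = 0 := hinj (h0.trans (map_zero _).symm)
  -- evaluate the cocycle
  let ev : ((Fin 3 → G) →₀ ℤ) →ₗ[ℤ] T := linearCombination ℤ (fun g => κ (g 0) (g 1) (g 2))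
  have hev : ∀ a b c, ev (uc a b c) = κ a b c := by
    intro a b c; simp [ev, uc]
  let k : cycles (Rep.trivial ℤ G ℤ) 3 ⟶ ModuleCat.of ℤ T :=
    iCycles _ 3 ≫ ModuleCat.ofHom ev
  have hk : (inhomogeneousChains (Rep.trivial ℤ G ℤ)).toCycles 4 3 ≫ k = 0 := by
    simp only [k]
    rw [← Category.assoc, HomologicalComplex.toCycles_i, inhomogeneousChains.d_def]
    apply ModuleCat.hom_ext
    apply lhom_ext'
    intro g
    apply LinearMap.ext_ring
    have hg : g = ![g 0, g 1, g 2, g 3] := by ext i; fin_cases i <;> rfl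
    change ev (inhomogeneousChains.d (Rep.trivial ℤ G ℤ) 3 (single g (1 : ℤ))) = 0
    rw [hg, d3_single]
    simp only [map_add, map_sub]
    erw [hev, hev, hev, hev, hev]
    exact hκ _ _ _ _
  obtain ⟨l, hl⟩ := Limits.CokernelCofork.IsColimit.desc'
    ((inhomogeneousChains (Rep.trivial ℤ G ℤ)).homologyIsCokernel 4 3 (by simp)) k hk
  have hl' : π (Rep.trivial ℤ G ℤ) 3 ≫ l = k := hl
  have h5 : k z = 0 := by
    rw [← hl', ModuleCat.comp_apply, h4, map_zero]
  apply hne
  have h7 : k z = ev (tor uc a b c) := by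
    rw [← hzi]; rfl
  rw [h7] at h5
  simpa only [tor, map_add, map_sub, hev] using h5

end Crest.Agent.R171
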