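import Mathlib

/-!
The ring `ℤ[t, y][x] / (Φ₅(1 - x) - t y⁵)` localised at `(5, x, y)`.
-/

set_option autoImplicit false

namespace Crest.Agent.R171

open Polynomial

/-- The base ring `ℤ[t, y]`. -/
abbrev B0 : Type := MvPolynomial (Fin 2) ℤ

/-- The defining polynomial. -/
noncomputable def fP : B0[X] :=
  X ^ 4 - C 5 * X ^ 3 + C 10 * X ^ 2 - C 10 * X +
    C (5 - MvPolynomial.X 0 * MvPolynomial.X 1 ^ 5)

theorem fP_monic : fP.Monic := by unfold fP; monicity!

theorem fP_degree : fP.degree = 4 := by unfold fP; compute_degree!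

theorem fP_irreducible : Irreducible fP := by
  let ev : B0 →+* ℤ := MvPolynomial.eval (fun _ => 0)
  have h5 : Prime (5 : ℤ) := Int.prime_ofNat_iff.mpr (by norm_num)
  have hp : (Ideal.span {(5 : ℤ)}).IsPrime := (Ideal.span_singleton_prime (by norm_num)).mpr h5
  have hmem : ∀ b : B0, b ∈ (Ideal.span {(5 : ℤ)}).comap ev ↔ (5 : ℤ) ∣ ev b := fun b => by
    rw [Ideal.mem_comap, Ideal.mem_span_singleton]
  apply irreducible_of_eisenstein_criterion (P := (Ideal.span {(5 : ℤ)}).comap ev)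
    (Ideal.comap_isPrime _ _)
  · rw [fP_monic.leadingCoeff, hmem]; simp
  · intro n hn
    rw [fP_degree] at hn
    have hn' : n < 4 := by exact_mod_cast hn
    rw [hmem]
    interval_cases n <;> simp [fP, ev, coeff_X, coeff_C, coeff_X_pow, map_ofNat]
  · rw [fP_degree]; norm_num
  · intro h
    have h1 := Ideal.le_comap_pow ev 2 h
    rw [Ideal.mem_comap, Ideal.span_singleton_pow, Ideal.mem_span_singleton] at h1
    simp [fP, ev, coeff_X, coeff_C, coeff_X_pow, map_ofNat] at h1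
  · exact fP_monic.isPrimitive

/-- The global ring. -/
abbrev R0 : Type := AdjoinRoot fP

instance : IsDomain R0 := AdjoinRoot.isDomain_of_prime fP_irreducible.prime

noncomputable def tR : R0 := AdjoinRoot.of fP (MvPolynomial.X 0)
noncomputable def yR : R0 := AdjoinRoot.of fP (MvPolynomial.X 1)
noncomputable def xR : R0 := AdjoinRoot.root fP

theorem eval₂_fP {S : Type*} [CommRing S] (i : B0 →+* S) (x : S) :
    fP.eval₂ i x = x ^ 4 - 5 * x ^ 3 + 10 * x ^ 2 - 10 * x + 5 -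
      i (MvPolynomial.X 0) * i (MvPolynomial.X 1) ^ 5 := by
  rw [fP, eval₂_add, eval₂_sub, eval₂_add, eval₂_sub, eval₂_mul, eval₂_mul, eval₂_mul,
    eval₂_C, eval₂_C, eval₂_C, eval₂_X_pow, eval₂_X_pow, eval₂_X_pow, eval₂_X]
  simp only [map_sub, map_mul, map_pow, map_ofNat]
  ring

theorem rel_R : xR ^ 4 - 5 * xR ^ 3 + 10 * xR ^ 2 - 10 * xR + 5 = tR * yR ^ 5 := by
  have h := AdjoinRoot.eval₂_root fP
  rw [eval₂_fP] at h
  exact sub_eq_zero.mp h

/-- Ring maps out of the global ring. -/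
noncomputable def liftR {S : Type*} [CommRing S] (t x y : S)
    (h : x ^ 4 - 5 * x ^ 3 + 10 * x ^ 2 - 10 * x + 5 = t * y ^ 5) : R0 →+* S :=
  AdjoinRoot.lift (MvPolynomial.eval₂Hom (Int.castRingHom S) ![t, y]) x (by
    rw [eval₂_fP, MvPolynomial.eval₂Hom_X', MvPolynomial.eval₂Hom_X']
    exact sub_eq_zero.mpr h)

theorem liftR_t {S : Type*} [CommRing S] (t x y : S) (h) : liftR t x y h tR = t := by
  simp [liftR, tR]
theorem liftR_y {S : Type*} [CommRing S] (t x y : S) (h) : liftR t x y h yR = y := by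
  simp [liftR, yR]
theorem liftR_x {S : Type*} [CommRing S] (t x y : S) (h) : liftR t x y h xR = x := by
  simp [liftR, xR]

theorem R0_ext {S : Type*} [CommRing S] {f g : R0 →+* S} (ht : f tR = g tR) (hx : f xR = g xR)
    (hy : f yR = g yR) : f = g := by
  apply AdjoinRoot.ringHom_ext _ hx
  apply MvPolynomial.ringHom_ext
  · intro r; simp
  · intro i
    fin_cases i
    · exact ht
    · exact hy

instance : CharZero R0 :=
  charZero_of_injective_ringHom (AdjoinRoot.of.injective_of_degree_ne_zero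
    (f := fP) (by rw [fP_degree]; norm_num))

instance fact5 : Fact (Nat.Prime 5) := ⟨by norm_num⟩

theorem five_poly : (5 : (ZMod 5)[X]) = 0 := by
  exact_mod_cast CharP.cast_eq_zero (ZMod 5)[X] 5

/-- Reduction modulo `(5, x, y)`. -/
noncomputable def κ0 : R0 →+* (ZMod 5)[X] := liftR X 0 0 (by simp [five_poly])

/-- The prime `(5, x, y)`. -/
noncomputable def mR : Ideal R0 := RingHom.ker κ0

instance : mR.IsPrime := RingHom.ker_isPrime _

theorem mR_le : mR ≤ Ideal.span {5, xR, yR} := by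
  set I : Ideal R0 := Ideal.span {5, xR, yR} with hI
  have h5 : ((5 : ℕ) : R0 ⧸ I) = 0 := by
    have : Ideal.Quotient.mk I 5 = 0 := Ideal.Quotient.eq_zero_iff_mem.mpr
      (Ideal.subset_span (by simp))
    simpa [map_ofNat] using this
  let ι : (ZMod 5)[X] →+* R0 ⧸ I :=
    eval₂RingHom (ZMod.castHom (ringChar.dvd h5) (R0 ⧸ I)) (Ideal.Quotient.mk I tR)
  have h : ι.comp κ0 = Ideal.Quotient.mk I := by
    apply R0_ext
    · simp [ι, κ0, liftR_t]
    · rw [RingHom.comp_apply, κ0, liftR_x, map_zero, eq_comm, Ideal.Quotient.eq_zero_iff_mem]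
      exact Ideal.subset_span (by simp)
    · rw [RingHom.comp_apply, κ0, liftR_y, map_zero, eq_comm, Ideal.Quotient.eq_zero_iff_mem]
      exact Ideal.subset_span (by simp)
  intro r hr
  rw [← Ideal.Quotient.eq_zero_iff_mem, ← h, RingHom.comp_apply, RingHom.mem_ker.mp hr, map_zero]

theorem x_mem : xR ∈ mR := by rw [mR, RingHom.mem_ker, κ0, liftR_x]
theorem y_mem : yR ∈ mR := by rw [mR, RingHom.mem_ker, κ0, liftR_y]

/-- A curve through the closed point. -/
noncomputable def φ0 : R0 →+* (ZMod 5)[X][X] :=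
  liftR (C X) (C X ^ 4 * X ^ 5) (C X ^ 3 * X ^ 4) (by
    have h5 : (5 : (ZMod 5)[X][X]) = 0 := by
      exact_mod_cast CharP.cast_eq_zero (ZMod 5)[X][X] 5
    linear_combination (-(C X ^ 4 * X ^ 5) ^ 3 + 2 * (C X ^ 4 * X ^ 5) ^ 2 -
      2 * (C X ^ 4 * X ^ 5) + 1) * h5)

theorem φ0_x : φ0 xR ≠ 0 := by rw [φ0, liftR_x]; simp
theorem φ0_y : φ0 yR ≠ 0 := by rw [φ0, liftR_y]; simp

theorem two_le_height : 2 ≤ mR.height := by
  have : (RingHom.ker φ0).IsPrime := RingHom.ker_isPrime _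
  have h1 : (⊥ : Ideal R0) < RingHom.ker φ0 := by
    rw [bot_lt_iff_ne_bot]
    intro h
    have h5 : (5 : R0) ∈ RingHom.ker φ0 := by
      rw [RingHom.mem_ker, map_ofNat]
      exact_mod_cast CharP.cast_eq_zero (ZMod 5)[X][X] 5
    rw [h, Ideal.mem_bot] at h5
    norm_num at h5
  have hc : (evalRingHom 0).comp φ0 = κ0 := by
    apply R0_ext
    · simp [φ0, κ0, liftR_t]
    · simp [φ0, κ0, liftR_x]
    · simp [φ0, κ0, liftR_y]
  have h2 : RingHom.ker φ0 < mR := by
    refine lt_of_le_of_ne (fun r hr => ?_) (fun h => φ0_x ?_)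
    · rw [mR, RingHom.mem_ker, ← hc, RingHom.comp_apply, RingHom.mem_ker.mp hr, map_zero]
    · rw [← RingHom.mem_ker, h]; exact x_mem
  have a1 := Ideal.height_add_one_le_of_lt_of_isPrime h1
  have a2 := Ideal.height_add_one_le_of_lt_of_isPrime h2
  rw [Ideal.height_bot, zero_add] at a1
  calc (2 : ℕ∞) = 1 + 1 := by norm_num
    _ ≤ (RingHom.ker φ0).height + 1 := by gcongr
    _ ≤ _ := a2

/-- The local ring. -/
abbrev A0 : Type := Localization.AtPrime mR

noncomputable def tA : A0 := algebraMap R0 A0 tR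
noncomputable def xA : A0 := algebraMap R0 A0 xR
noncomputable def yA : A0 := algebraMap R0 A0 yR

theorem inj_A : Function.Injective (algebraMap R0 A0) :=
  IsLocalization.injective A0 mR.primeCompl_le_nonZeroDivisors

theorem rel_A : xA ^ 4 - 5 * xA ^ 3 + 10 * xA ^ 2 - 10 * xA + 5 = tA * yA ^ 5 := by
  have := congrArg (algebraMap R0 A0) rel_R
  simp only [map_add, map_sub, map_mul, map_pow, map_ofNat] at this
  exact this

theorem xA_mem : xA ∈ IsLocalRing.maximalIdeal A0 :=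
  (IsLocalization.AtPrime.to_map_mem_maximal_iff A0 mR xR).mpr x_mem
theorem yA_mem : yA ∈ IsLocalRing.maximalIdeal A0 :=
  (IsLocalization.AtPrime.to_map_mem_maximal_iff A0 mR yR).mpr y_mem

theorem xA_ne : xA ≠ 0 := fun h => φ0_x (by
  rw [inj_A (h.trans (map_zero _).symm), map_zero])
theorem yA_ne : yA ≠ 0 := fun h => φ0_y (by
  rw [inj_A (h.trans (map_zero _).symm), map_zero])

theorem isUnit_one_add {a : A0} (h : a ∈ IsLocalRing.maximalIdeal A0) : IsUnit (1 + a) := by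
  have := IsLocalRing.isUnit_one_sub_self_of_mem_nonunits (-a) (neg_mem h)
  simpa using this

theorem five_mem (I : Ideal A0) (hx : xA ∈ I) (hy : yA ∈ I) : (5 : A0) ∈ I ^ 2 := by
  have hu : IsUnit (1 + xA * (-2 + 2 * xA - xA ^ 2)) :=
    isUnit_one_add (Ideal.mul_mem_right _ _ xA_mem)
  rw [← Ideal.mul_unit_mem_iff_mem _ hu]
  have : 5 * (1 + xA * (-2 + 2 * xA - xA ^ 2)) = (tA * yA ^ 3) * yA ^ 2 - xA ^ 2 * xA ^ 2 := by
    linear_combination rel_A
  rw [this]
  exact sub_mem (Ideal.mul_mem_left _ _ (Ideal.pow_mem_pow hy 2))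
    (Ideal.mul_mem_left _ _ (Ideal.pow_mem_pow hx 2))

theorem maximalIdeal_eq : IsLocalRing.maximalIdeal A0 = Ideal.span {xA, yA} := by
  apply le_antisymm
  · rw [← Localization.AtPrime.map_eq_maximalIdeal]
    refine (Ideal.map_mono mR_le).trans ?_
    rw [Ideal.map_span, Ideal.span_le]
    have hx : xA ∈ Ideal.span {xA, yA} := Ideal.subset_span (by simp)
    have hy : yA ∈ Ideal.span {xA, yA} := Ideal.subset_span (by simp)
    rintro _ ⟨r, hr, rfl⟩
    rcases hr with rfl | rfl | rfl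
    · rw [map_ofNat]
      exact Ideal.pow_le_self (by norm_num) (five_mem _ hx hy)
    · exact hx
    · exact hy
  · rw [Ideal.span_le]
    rintro _ (rfl | rfl)
    · exact xA_mem
    · exact yA_mem

theorem spanFinrank_le : (IsLocalRing.maximalIdeal A0).spanFinrank ≤ 2 := by
  rw [maximalIdeal_eq]
  refine (Submodule.spanFinrank_span_le_ncard_of_finite (Set.toFinite _)).trans ?_
  exact (Set.ncard_insert_le _ _).trans (by simp)

theorem two_le_dim : (2 : WithBot ℕ∞) ≤ ringKrullDim A0 := by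
  rw [IsLocalization.AtPrime.ringKrullDim_eq_height mR A0]
  exact WithBot.coe_le_coe.mpr two_le_height

theorem dim_A : ringKrullDim A0 = 2 := by
  refine le_antisymm ((ringKrullDim_le_spanFinrank_maximalIdeal A0).trans ?_) two_le_dim
  exact_mod_cast spanFinrank_le

theorem regular_A : IsRegularLocalRing A0 := by
  apply IsRegularLocalRing.of_spanFinrank_maximalIdeal_le
  rw [dim_A]
  exact_mod_cast spanFinrank_le

theorem charZero_A : CharZero A0 := charZero_of_injective_ringHom inj_A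

/-- The residue field. -/
abbrev k0 : Type := FractionRing (ZMod 5)[X]

/-- The test ring `k[Y]/(Y⁵)`. -/
abbrev T0 : Type := AdjoinRoot (X ^ 5 : k0[X])

noncomputable def YT : T0 := AdjoinRoot.root _

theorem YT_pow5 : YT ^ 5 = 0 := by
  have := AdjoinRoot.eval₂_root (X ^ 5 : k0[X])
  simpa [YT] using this

theorem YT_pow4 : YT ^ 4 ≠ 0 := by
  intro h
  have h1 : AdjoinRoot.mk (X ^ 5 : k0[X]) (X ^ 4) = 0 := by rw [map_pow]; exact h
  rw [AdjoinRoot.mk_eq_zero] at h1
  have := natDegree_le_of_dvd h1 (by simp)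
  simp at this

theorem five_k : (5 : k0) = 0 := by
  have := congrArg (algebraMap (ZMod 5)[X] k0) five_poly
  simpa only [map_ofNat, map_zero] using this

theorem five_T : (5 : T0) = 0 := by
  have := congrArg (AdjoinRoot.of (X ^ 5 : k0[X])) five_k
  simpa only [map_ofNat, map_zero] using this

noncomputable def evT : T0 →+* k0 := AdjoinRoot.lift (RingHom.id k0) 0 (by simp)

theorem isUnit_T (τ : T0) (h : evT τ ≠ 0) : IsUnit τ := by
  obtain ⟨p, rfl⟩ := AdjoinRoot.mk_surjective τ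
  have e : AdjoinRoot.mk (X ^ 5 : k0[X]) p = YT * AdjoinRoot.mk _ p.divX +
      AdjoinRoot.of _ (p.coeff 0) := by
    conv_lhs => rw [← X_mul_divX_add p]
    rw [map_add, map_mul]; rfl
  have hn : IsNilpotent (YT * AdjoinRoot.mk (X ^ 5 : k0[X]) p.divX) :=
    ⟨5, by rw [mul_pow, YT_pow5, zero_mul]⟩
  have h0 : p.coeff 0 ≠ 0 := by
    rw [e] at h
    simpa [evT, YT] using h
  rw [e]
  exact hn.isUnit_add_right_of_commute ((Ne.isUnit h0).map _) (Commute.all _ _)

/-- First-order thickening in three directions. -/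
abbrev S0 : Type := TrivSqZeroExt T0 (Fin 3 → T0)

noncomputable def τT : T0 := AdjoinRoot.of _ (algebraMap (ZMod 5)[X] k0 X)

noncomputable def ψR : R0 →+* S0 :=
  liftR (TrivSqZeroExt.inl τT + TrivSqZeroExt.inr (Pi.single 0 1))
    (TrivSqZeroExt.inr (Pi.single 1 1))
    (TrivSqZeroExt.inl YT + TrivSqZeroExt.inr (Pi.single 2 1)) (by
      have h5 : (5 : S0) = 0 := by
        have := congrArg (algebraMap T0 S0) five_T
        simpa only [map_ofNat, map_zero] using this
      have h1 : ∀ m : Fin 3 → T0, (TrivSqZeroExt.inr m : S0) ^ 2 = 0 := fun m => by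
        rw [pow_two, TrivSqZeroExt.inr_mul_inr]
      have h2 : (TrivSqZeroExt.inl YT : S0) ^ 5 = 0 := by
        rw [TrivSqZeroExt.inl_pow, YT_pow5, TrivSqZeroExt.inl_zero]
      have h3 := h1 (Pi.single 1 1)
      have h4 := h1 (Pi.single 2 1)
      generalize (TrivSqZeroExt.inr (Pi.single 1 1) : S0) = a at *
      generalize (TrivSqZeroExt.inr (Pi.single 2 1) : S0) = c at *
      generalize (TrivSqZeroExt.inl YT : S0) = y at *
      generalize (TrivSqZeroExt.inl τT + TrivSqZeroExt.inr (Pi.single 0 1) : S0) = t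
      linear_combination (-a ^ 3 + 2 * a ^ 2 - 2 * a + 1 -
        t * (y ^ 4 * c + 2 * y ^ 3 * c ^ 2 + 2 * y ^ 2 * c ^ 3 + y * c ^ 4)) * h5 + a ^ 2 * h3
        - t * h2 - t * c ^ 3 * h4)

theorem ψR_unit (r : mR.primeCompl) : IsUnit (ψR r) := by
  rw [TrivSqZeroExt.isUnit_iff_isUnit_fst]
  apply isUnit_T
  have h : evT.comp ((TrivSqZeroExt.fstHom T0 T0 (Fin 3 → T0)).toRingHom.comp ψR) =
      (algebraMap (ZMod 5)[X] k0).comp κ0 := by
    apply R0_ext
    · simp [ψR, κ0, liftR_t, evT, τT]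
    · simp [ψR, κ0, liftR_x, evT]
    · simp [ψR, κ0, liftR_y, evT, YT]
  have h1 : evT (ψR r).fst = algebraMap (ZMod 5)[X] k0 (κ0 r) := DFunLike.congr_fun h (r : R0)
  rw [h1, ne_eq, map_eq_zero_iff _ (IsFractionRing.injective _ _)]
  exact r.2

noncomputable def ψA : A0 →+* S0 := IsLocalization.lift (M := mR.primeCompl) ψR_unit

theorem exists_derivations : ∃ (T : Type) (_ : CommRing T) (ψ : A0 →+* T) (δ : Fin 3 → A0 →+ T),
    (∀ j a b, δ j (a * b) = ψ a * δ j b + δ j a * ψ b) ∧ ψ xA = 0 ∧ ψ yA ^ 5 = 0 ∧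
    ψ yA ^ 4 ≠ 0 ∧ (5 : T) = 0 ∧ δ 0 tA = 1 ∧ δ 0 xA = 0 ∧ δ 0 yA = 0 ∧ δ 1 xA = 1 ∧
    δ 2 tA = 0 ∧ δ 2 xA = 0 ∧ δ 2 yA = 1 := by
  have ht : ψA tA = TrivSqZeroExt.inl τT + TrivSqZeroExt.inr (Pi.single 0 1) := by
    rw [ψA, tA, IsLocalization.lift_eq, ψR, liftR_t]
  have hx : ψA xA = TrivSqZeroExt.inr (Pi.single 1 1) := by
    rw [ψA, xA, IsLocalization.lift_eq, ψR, liftR_x]
  have hy : ψA yA = TrivSqZeroExt.inl YT + TrivSqZeroExt.inr (Pi.single 2 1) := by
    rw [ψA, yA, IsLocalization.lift_eq, ψR, liftR_y]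
  refine ⟨T0, inferInstance, (TrivSqZeroExt.fstHom T0 T0 (Fin 3 → T0)).toRingHom.comp ψA,
    fun j => { toFun := fun a => (ψA a).snd j, map_zero' := by simp, map_add' := by simp },
    ?_, ?_, ?_, ?_, five_T, ?_, ?_, ?_, ?_, ?_, ?_, ?_⟩
  · intro j a b
    simp [TrivSqZeroExt.snd_mul, mul_comm]
  · simp [hx]
  · simpa [hy] using YT_pow5
  · simpa [hy] using YT_pow4
  all_goals simp [ht, hx, hy]

end Crest.Agent.R171
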