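import Crest.Agent.R171.Trace
import Crest.Agent.R171.Bridge
import Crest.Agent.R171.Ring

/-!
The class of the symbol `{U, V, W}` is non-zero over the local ring and dies over its fraction
field.
-/

set_option autoImplicit false

namespace Crest.Agent.R171

open Crest.AlgebraR.Steinberg

theorem stMap_xx {R S : Type*} [CommRing R] [CommRing S] (φ : R →+* S) {i j : ℕ} (h : i ≠ j)
    (a : R) : stMap φ (xx R i j a) = xx S i j (φ a) := by
  rw [xx_of_ne h, xx_of_ne h]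
  simp [stMap, PresentedGroup.map, x, genMap]
  rfl

theorem stMap_H {R S : Type*} [CommRing R] [CommRing S] (φ : R →+* S) {i j : ℕ} (h : i ≠ j)
    (u : Rˣ) : stMap φ (stH (xx R) i j u) = stH (xx S) i j (Units.map (φ : R →* S) u) := by
  simp only [stH, stW, map_mul, stMap_xx φ h, stMap_xx φ h.symm, map_neg, Units.coe_map,
    Units.coe_map_inv, MonoidHom.coe_coe, Units.val_neg, Units.val_one, inv_neg, inv_one, map_one]

theorem det_ne_zero {A T : Type} [CommRing A] [CommRing T] (ψ : A →+* T) (δ : Fin 3 → A →+ T)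
    (hδ : ∀ j a b, δ j (a * b) = ψ a * δ j b + δ j a * ψ b) {t x y b : A} {U V W : Aˣ}
    (hb : b * (1 + x * y) = 1 + t * y ^ 4) (hU : (U : A) * (1 - x) = 1 - b * x * y)
    (hV : (V : A) * (1 - x) = b * y - 1) (hW : (W : A) = -b)
    (h1 : ψ x = 0) (h2 : ψ y ^ 5 = 0) (h3 : ψ y ^ 4 ≠ 0) (h5 : (5 : T) = 0) (d0t : δ 0 t = 1)
    (d0x : δ 0 x = 0) (d0y : δ 0 y = 0) (d1x : δ 1 x = 1) (d2t : δ 2 t = 0) (d2x : δ 2 x = 0)
    (d2y : δ 2 y = 1) :
    4 * det3 (fun j (u : Aˣ) => ψ (u⁻¹ : Aˣ) * δ j u) U V W ≠ 0 := by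
  have hδ1 : ∀ j, δ j 1 = 0 := fun j => by
    have := hδ j 1 1
    simp only [mul_one, map_one, one_mul] at this
    linear_combination - this
  have y4 : y ^ 4 = y * (y * (y * y)) := by ring
  have pb := congrArg ψ hb
  have b0 := congrArg (δ 0) hb
  have b2 := congrArg (δ 2) hb
  have U0 := congrArg (δ 0) hU
  have U1 := congrArg (δ 1) hU
  have U2 := congrArg (δ 2) hU
  have V0 := congrArg (δ 0) hV
  have V2 := congrArg (δ 2) hV
  have W0 := congrArg (δ 0) hW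
  have pU := congrArg ψ hU
  simp only [y4, hδ, hδ1, map_add, map_sub, map_mul, map_one, map_neg, h1, d0t, d0x, d0y, d1x,
    d2t, d2x, d2y, mul_zero, zero_mul, add_zero, zero_add, mul_one, one_mul, sub_zero,
    neg_zero, zero_sub] at pb b0 b2 U0 U1 U2 V0 V2 W0 pU
  have iU : ψ (U⁻¹ : Aˣ) * ψ U = 1 := by rw [← map_mul, Units.inv_mul, map_one]
  have iV : ψ (V⁻¹ : Aˣ) * ψ V = 1 := by rw [← map_mul, Units.inv_mul, map_one]
  have iW : ψ (W⁻¹ : Aˣ) * ψ W = 1 := by rw [← map_mul, Units.inv_mul, map_one]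
  have V0' : δ 0 V = 0 := by rw [V0, b0]; linear_combination h2
  have U1' : δ 1 U = 1 - ψ y := by
    rw [pU, pb] at U1
    linear_combination U1 - ψ t * h2
  have V2' : δ 2 V = 1 := by
    rw [V2, b2, pb]
    linear_combination (ψ t * ψ y ^ 4) * h5
  intro h
  simp only [det3, U0, U2, V0', U1', V2', W0, b0] at h
  apply h3
  have h' : 4 * (ψ y ^ 4 * (1 - ψ y)) = 0 := by
    linear_combination (-(ψ U * ψ V * ψ W)) * h -
      4 * (ψ y ^ 4 * (1 - ψ y)) * ((ψ (V⁻¹ : Aˣ) * ψ V) * (ψ (W⁻¹ : Aˣ) * ψ W) * iU +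
        (ψ (W⁻¹ : Aˣ) * ψ W) * iV + iW)
  linear_combination ψ y ^ 4 * h5 - h' - 4 * h2

theorem not_injective_gen {A0 : Type} [CommRing A0] [IsDomain A0] [IsLocalRing A0]
    {tA xA yA : A0} (mx : xA ∈ IsLocalRing.maximalIdeal A0)
    (my : yA ∈ IsLocalRing.maximalIdeal A0) (xA_ne : xA ≠ 0) (yA_ne : yA ≠ 0)
    (rel_A : xA ^ 4 - 5 * xA ^ 3 + 10 * xA ^ 2 - 10 * xA + 5 = tA * yA ^ 5)
    (exists_derivations : ∃ (T : Type) (_ : CommRing T) (ψ : A0 →+* T) (δ : Fin 3 → A0 →+ T),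
      (∀ j a b, δ j (a * b) = ψ a * δ j b + δ j a * ψ b) ∧ ψ xA = 0 ∧ ψ yA ^ 5 = 0 ∧
      ψ yA ^ 4 ≠ 0 ∧ (5 : T) = 0 ∧ δ 0 tA = 1 ∧ δ 0 xA = 0 ∧ δ 0 yA = 0 ∧ δ 1 xA = 1 ∧
      δ 2 tA = 0 ∧ δ 2 xA = 0 ∧ δ 2 yA = 1) :
    ¬ Function.Injective (H3map (algebraMap A0 (FractionRing A0))).hom := by
  have isUnit_one_add : ∀ {a : A0}, a ∈ IsLocalRing.maximalIdeal A0 → IsUnit (1 + a) := by
    intro a h
    have := IsLocalRing.isUnit_one_sub_self_of_mem_nonunits (-a) (neg_mem h)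
    simpa using this
  have u1 : IsUnit (1 + xA * yA) := isUnit_one_add (Ideal.mul_mem_right _ _ mx)
  have u2 : IsUnit (1 + -xA) := isUnit_one_add (neg_mem mx)
  have u3 : IsUnit (1 + tA * yA ^ 4) :=
    isUnit_one_add (Ideal.mul_mem_left _ _ (Ideal.pow_mem_of_mem _ my 4 (by norm_num)))
  let B : A0ˣ := u3.unit * u1.unit⁻¹
  have hb : (B : A0) * (1 + xA * yA) = 1 + tA * yA ^ 4 := by
    simp only [B, Units.val_mul, IsUnit.unit_spec]
    rw [mul_assoc, IsUnit.val_inv_mul, mul_one]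
  have u4 : IsUnit (1 + -((B : A0) * xA * yA)) :=
    isUnit_one_add (neg_mem (Ideal.mul_mem_left _ _ my))
  have u5 : IsUnit (1 + -((B : A0) * yA)) :=
    isUnit_one_add (neg_mem (Ideal.mul_mem_left _ _ my))
  let U : A0ˣ := u4.unit * u2.unit⁻¹
  let V : A0ˣ := -(u5.unit * u2.unit⁻¹)
  let W : A0ˣ := -B
  have hU : (U : A0) * (1 - xA) = 1 - B * xA * yA := by
    simp only [U, Units.val_mul, IsUnit.unit_spec, sub_eq_add_neg]
    rw [mul_assoc, IsUnit.val_inv_mul, mul_one]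
  have hV : (V : A0) * (1 - xA) = B * yA - 1 := by
    simp only [V, Units.val_mul, Units.val_neg, IsUnit.unit_spec, sub_eq_add_neg]
    rw [neg_mul, mul_assoc, IsUnit.val_inv_mul, mul_one]
    ring
  have hW : (W : A0) = -B := rfl
  obtain ⟨T, _, ψ, δ, hδ, h1, h2, h3, h5, d0t, d0x, d0y, d1x, d2t, d2x, d2y⟩ := exists_derivations
  obtain ⟨c, hc, hval⟩ := exists_trace_cocycle ψ δ hδ
  refine not_injective_map (stMap (algebraMap A0 (FractionRing A0))) (trivialHom _) rfl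
    (commute_12 (diag_g1 U) (diag_g2 V)) (commute_13 (diag_g1 U) (diag_g3 W))
    (commute_23 (diag_g2 V) (diag_g3 W)) hc ?_ ?_
  · have := det_ne_zero ψ δ hδ hb hU hV hW h1 h2 h3 h5 d0t d0x d0y d1x d2t d2x d2y
    rw [← hval] at this
    exact this
  · intro M _ f hf
    set φ := algebraMap A0 (FractionRing A0) with hφ
    have hinj : Function.Injective φ := IsFractionRing.injective _ _
    have hx0 : φ xA ≠ 0 := (map_ne_zero_iff φ hinj).mpr xA_ne
    have hy0 : φ yA ≠ 0 := (map_ne_zero_iff φ hinj).mpr yA_ne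
    have key := (symb_isSymbol hf).key (Units.mk0 _ hx0) (Units.mk0 _ hy0)
      (Units.map (φ : A0 →* _) B) (Units.map (φ : A0 →* _) U) (Units.map (φ : A0 →* _) V)
      (Units.map (φ : A0 →* _) W)
      (by simpa [sub_eq_add_neg] using (u2.map φ).ne_zero)
      (by simpa using (u1.map φ).ne_zero)
      (by
        have : (1 - xA) ^ 5 = (1 + xA * yA) * (1 - B * xA * yA) := by
          linear_combination (-xA) * rel_A + (xA * yA) * hb
        simpa using congrArg φ this)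
      (by simpa using congrArg φ hU) (by simpa using congrArg φ hV) (by simpa using congrArg φ hW)
    simp only [g1, g2, g3, map_mul]
    rw [stMap_H φ (by omega), stMap_H φ (by omega), stMap_H φ (by omega), stMap_H φ (by omega),
      stMap_H φ (by omega), stMap_H φ (by omega)]
    exact key

end Crest.Agent.R171
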