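import Crest.Agent.R171.StSys
import Crest.Agent.R171.Cocycle

/-!
Kervaire–Steinberg lifting: a Steinberg system on at least five indices lifts to every central
extension (Milnor, Introduction to algebraic K-theory, Theorem 5.10).
-/

set_option autoImplicit false

namespace Crest.Agent.R171

/-- Any four indices can be avoided. -/
def Avoid4 (ι : Type*) : Prop := ∀ i j k l : ι, ∃ m, m ≠ i ∧ m ≠ j ∧ m ≠ k ∧ m ≠ l

theorem Avoid4.avoid2 {ι : Type*} (h : Avoid4 ι) : Avoid2 ι := fun i j => by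
  obtain ⟨m, h1, h2, -⟩ := h i j i j
  exact ⟨m, h1, h2⟩

/-- Commutator. -/
def cm {G : Type*} [Group G] (x y : G) : G := x * y * x⁻¹ * y⁻¹

theorem commute_of_cm {G : Type*} [Group G] {x y : G} (h : cm x y = 1) : Commute x y := by
  change x * y = y * x
  calc x * y = cm x y * (y * x) := by simp only [cm]; group
    _ = y * x := by rw [h, one_mul]

theorem cm_of_commute {G : Type*} [Group G] {x y : G} (h : Commute x y) : cm x y = 1 := by
  simp only [cm]; rw [h.eq]; group

theorem cj_cm {G : Type*} [Group G] (g x y : G) : cj g (cm x y) = cm (cj g x) (cj g y) := by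
  simp only [cm, cj]; group

theorem cm_central_left {G : Type*} [Group G] {z : G} (hz : ∀ y, Commute z y) (x y : G) :
    cm (z * x) y = cm x y := by
  have h := (hz (x * y * x⁻¹)).eq
  calc cm (z * x) y = (z * (x * y * x⁻¹)) * z⁻¹ * y⁻¹ := by simp only [cm]; group
    _ = cm x y := by rw [h]; simp only [cm]; group

theorem cm_central_right {G : Type*} [Group G] {z : G} (hz : ∀ y, Commute z y) (x y : G) :
    cm x (z * y) = cm x y := by
  have h := (hz (y * x⁻¹ * y⁻¹)).eq
  have h' := (hz x).eq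
  calc cm x (z * y) = x * (z * (y * x⁻¹ * y⁻¹)) * z⁻¹ := by simp only [cm]; group
    _ = cm x y := by rw [h]; simp only [cm]; group

section lift

variable {ι R G E : Type*} [CommRing R] [Group G] [Group E] {X : ι → ι → R → G} {p : E →* G}

theorem map_cm (p : E →* G) (x y : E) : p (cm x y) = cm (p x) (p y) := by
  simp only [cm, map_mul, map_inv]

theorem map_cj (p : E →* G) (x y : E) : p (cj x y) = cj (p x) (p y) := by
  simp only [cj, map_mul, map_inv]

theorem cm_congr (hc : ∀ z, p z = 1 → ∀ y, Commute z y) {x x' y y' : E} (hx : p x = p x')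
    (hy : p y = p y') : cm x y = cm x' y' := by
  have e1 : x = (x * x'⁻¹) * x' := by group
  have e2 : y = (y * y'⁻¹) * y' := by group
  rw [e1, e2, cm_central_left (hc _ (by simp [hx])), cm_central_right (hc _ (by simp [hy]))]

theorem lift_comm (hsurj : Function.Surjective p) (hc : ∀ z, p z = 1 → ∀ y, Commute z y)
    (hX : IsStSys X) (h5 : Avoid4 ι) {i j k l : ι} (hij : i ≠ j) (hkl : k ≠ l) (hjk : j ≠ k)
    (hil : i ≠ l) {a b : R} {x y : E} (hx : p x = X i j a) (hy : p y = X k l b) :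
    Commute x y := by
  obtain ⟨m, hmi, hmj, hmk, hml⟩ := h5 i j k l
  obtain ⟨x1, hx1⟩ := hsurj (X i m a)
  obtain ⟨x2, hx2⟩ := hsurj (X m j 1)
  have h1 : p (cm x1 x2) = X i j a := by
    rw [map_cm, hx1, hx2, cm, hX.mul hmi.symm hmj hij, mul_one]
  have h2 : cj y (cm x1 x2) = cm x1 x2 := by
    rw [cj_cm]
    apply cm_congr hc
    · rw [map_cj, hy, hx1, hX.cj_disj hkl hmi.symm hil.symm hmk.symm]
    · rw [map_cj, hy, hx2, hX.cj_disj hkl hmj hml.symm hjk.symm]
  have e : x = (x * (cm x1 x2)⁻¹) * cm x1 x2 := by group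
  rw [e]
  exact (hc _ (by simp [hx, h1]) y).mul_left (commute_of_cj h2).symm

theorem lift_jacobi (hsurj : Function.Surjective p) (hc : ∀ z, p z = 1 → ∀ y, Commute z y)
    (hX : IsStSys X) (h5 : Avoid4 ι) {h i j k : ι} (hhi : h ≠ i) (hhj : h ≠ j) (hhk : h ≠ k)
    (hij : i ≠ j) (hik : i ≠ k) (hjk : j ≠ k) {c μ ν : R} {u v w : E} (hu : p u = X h i c)
    (hv : p v = X i j μ) (hw : p w = X j k ν) : cm (cm u v) w = cm u (cm v w) := by
  have ha : p (cm u v) = X h j (c * μ) := by rw [map_cm, hu, hv, cm, hX.mul hhi hij hhj]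
  have hb : p (cm v w) = X i k (μ * ν) := by rw [map_cm, hv, hw, cm, hX.mul hij hjk hik]
  have hd : p (cm (cm u v) w) = X h k (c * μ * ν) := by
    rw [map_cm, ha, hw, cm, hX.mul hhj hjk hhk]
  have huw : Commute u w := lift_comm hsurj hc hX h5 hhi hjk hij hhk hu hw
  have hab : Commute (cm u v) (cm v w) := lift_comm hsurj hc hX h5 hhj hik hij.symm hhk ha hb
  have hbd : Commute (cm v w) (cm (cm u v) w) :=
    lift_comm hsurj hc hX h5 hik hhk hhk.symm hik hb hd
  generalize hA : cm u v = A at *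
  have e1 : cj u v = A * v := by rw [← hA]; simp only [cm, cj]; group
  have e2 : cj u (cm v w) = cm v w * cm A w := by
    rw [cj_cm, e1, cj_of_commute huw]
    calc cm (A * v) w = A * cm v w * w * A⁻¹ * w⁻¹ := by simp only [cm]; group
      _ = cm v w * cm A w := by rw [hab.eq]; simp only [cm]; group
  calc cm A w = cm v w * cm A w * (cm v w)⁻¹ := by rw [hbd.eq]; group
    _ = cm u (cm v w) := by rw [← e2]; simp only [cm, cj]

theorem kervaire (hsurj : Function.Surjective p) (hc : ∀ z, p z = 1 → ∀ y, Commute z y)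
    (hX : IsStSys X) (h5 : Avoid4 ι) :
    ∃ Y : ι → ι → R → E, IsStSys Y ∧ ∀ i j, i ≠ j → ∀ a, p (Y i j a) = X i j a := by
  choose s hs using hsurj
  have hsurj : Function.Surjective p := fun g => ⟨s g, hs g⟩
  choose mid hmid using h5.avoid2
  let Y : ι → ι → R → E := fun h k ν => cm (s (X h (mid h k) 1)) (s (X (mid h k) k ν))
  have hY : ∀ h k, h ≠ k → ∀ ν, p (Y h k ν) = X h k ν := by
    intro h k hhk ν
    simp only [Y]
    rw [map_cm, hs, hs, cm, hX.mul (hmid h k).1.symm (hmid h k).2 hhk, one_mul]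
  have hind : ∀ h j k, h ≠ k → h ≠ j → j ≠ k → ∀ ν u w, p u = X h j 1 → p w = X j k ν →
      cm u w = Y h k ν := by
    intro h j k hhk hhj hjk ν u w hu hw
    by_cases hjm : j = mid h k
    · exact cm_congr hc (by rw [hu, hs, ← hjm]) (by rw [hw, hs, ← hjm])
    · have hm1 := (hmid h k).1
      have hm2 := (hmid h k).2
      have J := lift_jacobi hsurj hc hX h5 hm1.symm hhj hhk (Ne.symm hjm) hm2 hjk
        (hs (X h (mid h k) 1)) (hs (X (mid h k) j 1)) hw
      calc cm u w = cm (cm (s (X h (mid h k) 1)) (s (X (mid h k) j 1))) w := by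
            apply cm_congr hc _ rfl
            rw [map_cm, hs, hs, hu, cm, hX.mul hm1.symm (Ne.symm hjm) hhj, mul_one]
        _ = _ := J
        _ = Y h k ν := by
            apply cm_congr hc rfl
            rw [map_cm, hs, hs, hw, cm, hX.mul (Ne.symm hjm) hjk hm2, one_mul]
  refine ⟨Y, ⟨?_, ?_, ?_⟩, hY⟩
  · intro h k hhk μ ν
    have hm1 := (hmid h k).1
    have hm2 := (hmid h k).2
    have hcomm : Commute (s (X (mid h k) k μ)) (Y h k ν) :=
      lift_comm hsurj hc hX h5 hm2 hhk hhk.symm hm2 (hs _) (hY h k hhk ν)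
    rw [← hind h (mid h k) k hhk hm1.symm hm2 (μ + ν) (s (X h (mid h k) 1))
      (s (X (mid h k) k μ) * s (X (mid h k) k ν)) (hs _) (by rw [map_mul, hs, hs, hX.add hm2])]
    calc Y h k μ * Y h k ν = Y h k μ * cj (s (X (mid h k) k μ)) (Y h k ν) := by
          rw [cj_of_commute hcomm]
      _ = _ := by simp only [Y, cm, cj]; group
  · intro i j k l hij hkl hjk hil a b
    exact lift_comm hsurj hc hX h5 hij hkl hjk hil (hY i j hij a) (hY k l hkl b)
  · intro h j k hhj hjk hhk μ ν
    obtain ⟨i, hih, hij, hik, -⟩ := h5 h j k k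
    have J := lift_jacobi hsurj hc hX h5 hih.symm hhj hhk hij hik hjk
      (hs (X h i 1)) (hs (X i j μ)) (hY j k hjk ν)
    calc Y h j μ * Y j k ν * (Y h j μ)⁻¹ * (Y j k ν)⁻¹ = cm (Y h j μ) (Y j k ν) := rfl
      _ = cm (cm (s (X h i 1)) (s (X i j μ))) (Y j k ν) := by
          rw [hind h i j hhj hih.symm hij μ _ _ (hs _) (hs _)]
      _ = _ := J
      _ = Y h k (μ * ν) := by
          apply hind h i k hhk hih.symm hik _ _ _ (hs _)
          rw [map_cm, hs, hY j k hjk, cm, hX.mul hij hjk hik]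

end lift

/-- If a Steinberg system on at least five indices centralises `k`, the torus class of
`h(u), h(1-u), k` vanishes. -/
theorem tor_H_steinberg {ι R G M : Type*} [CommRing R] [Group G] [AddCommGroup M]
    {X : ι → ι → R → G} (hX : IsStSys X) (h5 : Avoid4 ι) {f : G → G → G → M}
    (hf : IsCocycle3 f) {k : G} (hk : ∀ i j a, Commute (X i j a) k) {i j : ι} (hij : i ≠ j)
    (u v : Rˣ) (huv : (u : R) + v = 1) : tor f (stH X i j u) (stH X i j v) k = 0 := by
  let X' : ι → ι → R → Subgroup.centralizer ({k} : Set G) := fun i j a =>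
    ⟨X i j a, by rintro _ rfl; exact (hk i j a).symm⟩
  have hX' : IsStSys X' :=
    ⟨fun h a b => Subtype.ext (hX.add h a b),
     fun h1 h2 h3 h4 a b => Subtype.ext (hX.comm h1 h2 h3 h4 a b),
     fun h1 h2 h3 a b => Subtype.ext (hX.mul h1 h2 h3 a b)⟩
  obtain ⟨Y, hY, hpY⟩ := kervaire (p := CExt.proj (slantC f k) (slantC_cocycle hf k))
    CExt.proj_surjective CExt.proj_central hX' h5
  have hc := CExt.symm_of_commute (hY.H_commute_steinberg h5.avoid2 hij u v huv)
  have e : ∀ w : Rˣ, ((CExt.proj (slantC f k) (slantC_cocycle hf k) (stH Y i j w) :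
      Subgroup.centralizer ({k} : Set G)) : G) = stH X i j w := by
    intro w
    simp only [stH, stW, map_mul, hpY i j hij, hpY j i hij.symm, Subgroup.coe_mul, X']
  rw [tor_eq_slant, ← e u, ← e v]
  exact sub_eq_zero.mpr hc

end Crest.Agent.R171
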