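import Mathlib.Algebra.Group.Commute.Basic
import Mathlib.Algebra.Ring.Units
import Mathlib.Algebra.Field.Basic
import Mathlib.GroupTheory.Perm.Basic
import Mathlib.Tactic.Ring
import Mathlib.Tactic.FieldSimp
import Mathlib.Tactic.Group
import Mathlib.Tactic.LinearCombination

/-!
Systems of elements of a group satisfying the Steinberg relations; the elements `w` and `h`
and their conjugation action.
-/

set_option autoImplicit false

namespace Crest.Agent.R171

/-- Conjugation. -/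
def cj {G : Type*} [Group G] (g x : G) : G := g * x * g⁻¹

section cj
variable {G : Type*} [Group G]
theorem cj_mul (g x y : G) : cj g (x * y) = cj g x * cj g y := by simp only [cj]; group
theorem cj_inv (g x : G) : cj g x⁻¹ = (cj g x)⁻¹ := by simp only [cj]; group
theorem cj_mul_left (g h x : G) : cj (g * h) x = cj g (cj h x) := by simp only [cj]; group
theorem cj_one_left (x : G) : cj 1 x = x := by simp [cj]
theorem cj_of_commute {g x : G} (h : Commute g x) : cj g x = x := by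
  simp only [cj]; rw [h.eq]; group
theorem commute_of_cj {g x : G} (h : cj g x = x) : Commute g x := by
  simp only [cj] at h
  change g * x = x * g
  calc g * x = g * x * g⁻¹ * g := by group
    _ = x * g := by rw [h]
theorem cj_inv_cj (g x : G) : cj g⁻¹ (cj g x) = x := by simp only [cj]; group
end cj

/-- A Steinberg system in the group `G`. -/
structure IsStSys {ι R G : Type*} [CommRing R] [Group G] (X : ι → ι → R → G) : Prop where
  add : ∀ {i j : ι}, i ≠ j → ∀ a b, X i j a * X i j b = X i j (a + b)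
  comm : ∀ {i j k l : ι}, i ≠ j → k ≠ l → j ≠ k → i ≠ l → ∀ a b, Commute (X i j a) (X k l b)
  mul : ∀ {i j l : ι}, i ≠ j → j ≠ l → i ≠ l → ∀ a b,
    X i j a * X j l b * (X i j a)⁻¹ * (X j l b)⁻¹ = X i l (a * b)

variable {ι R G : Type*} [CommRing R] [Group G]

/-- The element `w_ij(u)`. -/
def stW (X : ι → ι → R → G) (i j : ι) (u : Rˣ) : G :=
  X i j u * X j i (-((u⁻¹ : Rˣ) : R)) * X i j u

/-- The element `h_ij(u)`. -/
def stH (X : ι → ι → R → G) (i j : ι) (u : Rˣ) : G := stW X i j u * stW X i j (-1)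

/-- `g` acts on the system by conjugation like the monomial matrix given by `σ` and `d`. -/
def Acts (X : ι → ι → R → G) (g : G) (σ : Equiv.Perm ι) (d : ι → Rˣ) : Prop :=
  ∀ k l, k ≠ l → ∀ a, cj g (X k l a) = X (σ k) (σ l) (d k * a * ((d l)⁻¹ : Rˣ))

/-- `g` acts on the system by conjugation like the diagonal matrix `d`. -/
def Diag (X : ι → ι → R → G) (g : G) (d : ι → Rˣ) : Prop :=
  ∀ k l, k ≠ l → ∀ a, cj g (X k l a) = X k l (d k * a * ((d l)⁻¹ : Rˣ))

variable {X : ι → ι → R → G}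

theorem Acts.mul {g g' : G} {σ σ' : Equiv.Perm ι} {d d' : ι → Rˣ} (h : Acts X g σ d)
    (h' : Acts X g' σ' d') : Acts X (g * g') (σ * σ') (fun k => d (σ' k) * d' k) := by
  intro k l hkl a
  rw [cj_mul_left, h' k l hkl, h _ _ (σ'.injective.ne hkl)]
  simp only [Equiv.Perm.mul_apply, Units.val_mul, mul_inv_rev]
  congr 1; ring

theorem Acts.diag {g : G} {d : ι → Rˣ} (h : Acts X g 1 d) : Diag X g d := h

theorem Diag.mul {g g' : G} {d d' : ι → Rˣ} (h : Diag X g d) (h' : Diag X g' d') :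
    Diag X (g * g') (d * d') := by
  intro k l hkl a
  rw [cj_mul_left, h' k l hkl, h _ _ hkl]
  simp only [Pi.mul_apply, Units.val_mul, mul_inv_rev]
  congr 1; ring

theorem Diag.inv {g : G} {d : ι → Rˣ} (h : Diag X g d) : Diag X g⁻¹ d⁻¹ := by
  intro k l hkl a
  have h1 := h k l hkl (((d k)⁻¹ : Rˣ) * a * d l)
  have h2 : (d k : R) * (((d k)⁻¹ : Rˣ) * a * d l) * ((d l)⁻¹ : Rˣ) = a := by
    have e1 : (d k : R) * ((d k)⁻¹ : Rˣ) = 1 := Units.mul_inv _
    have e2 : (d l : R) * ((d l)⁻¹ : Rˣ) = 1 := Units.mul_inv _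
    linear_combination (a * (d l : R) * ((d l)⁻¹ : Rˣ)) * e1 + a * e2
  rw [h2] at h1
  rw [← h1, cj_inv_cj]
  simp

theorem Diag.congr {g : G} {d d' : ι → Rˣ} (h : Diag X g d) (e : d = d') : Diag X g d' := e ▸ h

theorem Diag.commute {g : G} {d : ι → Rˣ} (h : Diag X g d) {k l : ι} (hkl : k ≠ l)
    (e : d k = d l) (a : R) : Commute g (X k l a) := by
  apply commute_of_cj
  rw [h k l hkl, e]
  congr 1
  have e2 : (d l : R) * ((d l)⁻¹ : Rˣ) = 1 := Units.mul_inv _
  linear_combination a * e2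

theorem Acts.conj_diag {n g : G} {σ : Equiv.Perm ι} {e d : ι → Rˣ} (hn : Acts X n σ e)
    (hg : Diag X g d) : Diag X (cj n g) (fun k => d (σ.symm k)) := by
  intro k l hkl a
  have hkl' : σ.symm k ≠ σ.symm l := σ.symm.injective.ne hkl
  have h1 := hn (σ.symm k) (σ.symm l) hkl' (((e (σ.symm k))⁻¹ : Rˣ) * a * e (σ.symm l))
  have e1 : (e (σ.symm k) : R) * ((e (σ.symm k))⁻¹ : Rˣ) = 1 := Units.mul_inv _
  have e2 : (e (σ.symm l) : R) * ((e (σ.symm l))⁻¹ : Rˣ) = 1 := Units.mul_inv _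
  have h2 : (e (σ.symm k) : R) * (((e (σ.symm k))⁻¹ : Rˣ) * a * e (σ.symm l)) *
      ((e (σ.symm l))⁻¹ : Rˣ) = a := by
    linear_combination (a * (e (σ.symm l) : R) * ((e (σ.symm l))⁻¹ : Rˣ)) * e1 + a * e2
  rw [h2, Equiv.apply_symm_apply, Equiv.apply_symm_apply] at h1
  rw [← h1]
  have : cj (cj n g) (cj n (X (σ.symm k) (σ.symm l)
      (((e (σ.symm k))⁻¹ : Rˣ) * a * e (σ.symm l)))) = cj n (cj g (X (σ.symm k) (σ.symm l)
      (((e (σ.symm k))⁻¹ : Rˣ) * a * e (σ.symm l)))) := by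
    simp only [cj]; group
  rw [this, hg _ _ hkl', hn _ _ hkl', Equiv.apply_symm_apply, Equiv.apply_symm_apply]
  congr 1
  linear_combination ((d (σ.symm k) : R) * a * ((d (σ.symm l))⁻¹ : Rˣ) * (e (σ.symm l) : R) *
    ((e (σ.symm l))⁻¹ : Rˣ)) * e1 + (d (σ.symm k) : R) * a * ((d (σ.symm l))⁻¹ : Rˣ) * e2

namespace IsStSys

theorem zero (hX : IsStSys X) {i j : ι} (hij : i ≠ j) : X i j 0 = 1 := by
  have h := hX.add hij 0 0
  rw [add_zero] at h
  exact mul_eq_left.mp h

theorem inv (hX : IsStSys X) {i j : ι} (hij : i ≠ j) (a : R) : (X i j a)⁻¹ = X i j (-a) := by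
  rw [inv_eq_iff_mul_eq_one, hX.add hij, add_neg_cancel, hX.zero hij]

theorem cj_disj (hX : IsStSys X) {i j k l : ι} (hij : i ≠ j) (hkl : k ≠ l) (hjk : j ≠ k)
    (hil : i ≠ l) (a b : R) : cj (X i j a) (X k l b) = X k l b :=
  cj_of_commute (hX.comm hij hkl hjk hil a b)

theorem cj_left (hX : IsStSys X) {i j l : ι} (hij : i ≠ j) (hjl : j ≠ l) (hil : i ≠ l)
    (a b : R) : cj (X i j a) (X j l b) = X i l (a * b) * X j l b := by
  rw [← hX.mul hij hjl hil a b, cj]; group

theorem cj_right (hX : IsStSys X) {i j k : ι} (hij : i ≠ j) (hki : k ≠ i) (hkj : k ≠ j)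
    (a b : R) : cj (X i j a) (X k i b) = X k j (-(b * a)) * X k i b := by
  rw [← hX.inv hkj, ← hX.mul hki hij hkj b a, cj]; group

theorem sandwich (hX : IsStSys X) {i j : ι} (hij : i ≠ j) {a c : R} {y : G}
    (h : Commute (X i j c) y) (hac : a + c = 0) : X i j a * y * X i j c = y := by
  rw [mul_assoc, ← h.eq, ← mul_assoc, hX.add hij, hac, hX.zero hij, one_mul]

theorem cjW_il (hX : IsStSys X) {i j l : ι} (hij : i ≠ j) (hil : i ≠ l) (hjl : j ≠ l)
    (u : Rˣ) (a : R) : cj (stW X i j u) (X i l a) = X j l (-((u⁻¹ : Rˣ) : R) * a) := by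
  rw [stW, cj_mul_left, cj_mul_left, hX.cj_disj hij hil hij.symm hil,
    hX.cj_left hij.symm hil hjl, cj_mul, hX.cj_left hij hjl hil, hX.cj_disj hij hil hij.symm hil]
  apply hX.sandwich hil (hX.comm hil hjl hjl.symm hil _ _)
  have e : (u : R) * (u⁻¹ : Rˣ) = 1 := Units.mul_inv _
  linear_combination (-a) * e

theorem cjW_jl (hX : IsStSys X) {i j l : ι} (hij : i ≠ j) (hil : i ≠ l) (hjl : j ≠ l)
    (u : Rˣ) (a : R) : cj (stW X i j u) (X j l a) = X i l (u * a) := by
  rw [stW, cj_mul_left, cj_mul_left, hX.cj_left hij hjl hil, cj_mul,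
    hX.cj_left hij.symm hil hjl, hX.cj_disj hij.symm hjl hij hjl,
    hX.sandwich hjl (hX.comm hjl hil hil.symm hjl _ _), hX.cj_disj hij hil hij.symm hil]
  have e : (u : R) * (u⁻¹ : Rˣ) = 1 := Units.mul_inv _
  linear_combination (-a) * e

theorem cjW_ki (hX : IsStSys X) {i j k : ι} (hij : i ≠ j) (hki : k ≠ i) (hkj : k ≠ j)
    (u : Rˣ) (a : R) : cj (stW X i j u) (X k i a) = X k j (-(a * u)) := by
  rw [stW, cj_mul_left, cj_mul_left, hX.cj_right hij hki hkj, cj_mul,
    hX.cj_right hij.symm hkj hki, hX.cj_disj hij.symm hki hki.symm hij.symm,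
    hX.sandwich hki (hX.comm hki hkj hki.symm hkj _ _), hX.cj_disj hij hkj hkj.symm hij]
  have e : (u : R) * (u⁻¹ : Rˣ) = 1 := Units.mul_inv _
  linear_combination (-a) * e

theorem cjW_kj (hX : IsStSys X) {i j k : ι} (hij : i ≠ j) (hki : k ≠ i) (hkj : k ≠ j)
    (u : Rˣ) (a : R) : cj (stW X i j u) (X k j a) = X k i (a * ((u⁻¹ : Rˣ) : R)) := by
  rw [stW, cj_mul_left, cj_mul_left, hX.cj_disj hij hkj hkj.symm hij,
    hX.cj_right hij.symm hkj hki, cj_mul, hX.cj_right hij hki hkj,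
    hX.cj_disj hij hkj hkj.symm hij, hX.sandwich hkj (hX.comm hkj hki hkj.symm hki _ _)]
  · congr 1; ring
  · have e : (u : R) * (u⁻¹ : Rˣ) = 1 := Units.mul_inv _
    linear_combination (-a) * e

theorem cjW_kl (hX : IsStSys X) {i j k l : ι} (hij : i ≠ j) (hkl : k ≠ l) (hki : k ≠ i)
    (hkj : k ≠ j) (hli : l ≠ i) (hlj : l ≠ j) (u : Rˣ) (a : R) :
    cj (stW X i j u) (X k l a) = X k l a := by
  rw [stW, cj_mul_left, cj_mul_left, hX.cj_disj hij hkl hkj.symm hli.symm,
    hX.cj_disj hij.symm hkl hki.symm hlj.symm, hX.cj_disj hij hkl hkj.symm hli.symm]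

theorem cjW_ij (hX : IsStSys X) {i j m : ι} (hij : i ≠ j) (hmi : m ≠ i) (hmj : m ≠ j)
    (u : Rˣ) (a : R) :
    cj (stW X i j u) (X i j a) = X j i (-((u⁻¹ : Rˣ) : R) * a * ((u⁻¹ : Rˣ) : R)) := by
  have h := hX.mul hmi.symm hmj hij a 1
  rw [mul_one] at h
  rw [← h, cj_mul, cj_mul, cj_mul, cj_inv, cj_inv, hX.cjW_il hij hmi.symm hmj.symm,
    hX.cjW_kj hij hmi hmj, hX.mul hmj.symm hmi hij.symm, one_mul]

theorem cjW_ji (hX : IsStSys X) {i j m : ι} (hij : i ≠ j) (hmi : m ≠ i) (hmj : m ≠ j)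
    (u : Rˣ) (a : R) : cj (stW X i j u) (X j i a) = X i j (-(u * a * u)) := by
  have h := hX.mul hmj.symm hmi hij.symm a 1
  rw [mul_one] at h
  rw [← h, cj_mul, cj_mul, cj_mul, cj_inv, cj_inv, hX.cjW_jl hij hmi.symm hmj.symm,
    hX.cjW_ki hij hmi hmj, hX.mul hmi.symm hmj hij]
  congr 1; ring

end IsStSys

/-- Any two indices can be avoided. -/
def Avoid2 (ι : Type*) : Prop := ∀ i j : ι, ∃ m, m ≠ i ∧ m ≠ j

variable [DecidableEq ι]

/-- Diagonal part of `w_ij(u)`. -/
def wd (i j : ι) (u : Rˣ) : ι → Rˣ := fun k => if k = i then -u⁻¹ else if k = j then u else 1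

/-- Diagonal matrix of `h_ij(u)`. -/
def hd (i j : ι) (u : Rˣ) : ι → Rˣ := fun k => if k = i then u else if k = j then u⁻¹ else 1

namespace IsStSys

theorem acts_W (hX : IsStSys X) (h3 : Avoid2 ι) {i j : ι} (hij : i ≠ j) (u : Rˣ) :
    Acts X (stW X i j u) (Equiv.swap i j) (wd i j u) := by
  obtain ⟨m, hmi, hmj⟩ := h3 i j
  intro k l hkl a
  by_cases hki : k = i
  · subst hki
    by_cases hlj : l = j
    · subst hlj
      rw [hX.cjW_ij hij hmi hmj]
      simp [wd, hij.symm]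
    · rw [hX.cjW_il hij hkl (Ne.symm hlj), Equiv.swap_apply_left,
        Equiv.swap_apply_of_ne_of_ne hkl.symm hlj]
      simp [wd, hkl.symm, hlj]
  by_cases hkj : k = j
  · subst hkj
    by_cases hli : l = i
    · subst hli
      rw [hX.cjW_ji hij hmi hmj]
      simp [wd, hij.symm]
    · rw [hX.cjW_jl hij (Ne.symm hli) hkl, Equiv.swap_apply_right,
        Equiv.swap_apply_of_ne_of_ne hli hkl.symm]
      simp [wd, hkl.symm, hli, hki]
  by_cases hli : l = i
  · subst hli
    rw [hX.cjW_ki hij hki hkj, Equiv.swap_apply_left, Equiv.swap_apply_of_ne_of_ne hki hkj]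
    simp [wd, hki, hkj]
  by_cases hlj : l = j
  · subst hlj
    rw [hX.cjW_kj hij hki hkj, Equiv.swap_apply_right, Equiv.swap_apply_of_ne_of_ne hki hkj]
    simp [wd, hki, hkj, hli]
  · rw [hX.cjW_kl hij hkl hki hkj hli hlj, Equiv.swap_apply_of_ne_of_ne hki hkj,
      Equiv.swap_apply_of_ne_of_ne hli hlj]
    simp [wd, hki, hkj, hli, hlj]

theorem diag_H (hX : IsStSys X) (h3 : Avoid2 ι) {i j : ι} (hij : i ≠ j) (u : Rˣ) :
    Diag X (stH X i j u) (hd i j u) := by
  have h := (hX.acts_W h3 hij u).mul (hX.acts_W h3 hij (-1))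
  rw [Equiv.swap_mul_self] at h
  refine h.diag.congr ?_
  funext k
  by_cases hki : k = i
  · subst hki; simp [wd, hd, hij.symm]
  by_cases hkj : k = j
  · subst hkj; simp [wd, hd, hki]
  · simp [wd, hd, hki, hkj, Equiv.swap_apply_of_ne_of_ne hki hkj]

omit [DecidableEq ι] in
theorem W_neg_one (hX : IsStSys X) (h3 : Avoid2 ι) {i j : ι} (hij : i ≠ j) :
    stW X i j (-1) = X j i 1 * X i j (-1) * X j i 1 := by
  obtain ⟨m, hmi, hmj⟩ := h3 i j
  have h : cj (stW X i j (-1)) (stW X i j (-1)) = stW X i j (-1) := cj_of_commute (Commute.refl _)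
  rw [← h]
  conv_lhs => rw [stW.eq_def X i j (-1), cj_mul, cj_mul]
  rw [← stW.eq_def X i j (-1), hX.cjW_ij hij hmi hmj, hX.cjW_ji hij hmi hmj]
  simp

omit [DecidableEq ι] in
theorem W_inv (hX : IsStSys X) {i j : ι} (hij : i ≠ j) (u : Rˣ) :
    (stW X i j u)⁻¹ = stW X i j (-u) := by
  simp only [stW, mul_inv_rev, hX.inv hij, hX.inv hij.symm, Units.val_neg, inv_neg, neg_neg,
    mul_assoc]

omit [DecidableEq ι] in
/-- The Steinberg identity `w(u) w(-1) w(v) = w(uv)` for `u + v = 1`. -/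
theorem W_steinberg (hX : IsStSys X) (h3 : Avoid2 ι) {i j : ι} (hij : i ≠ j) (u v : Rˣ)
    (huv : (u : R) + v = 1) :
    stW X i j u * stW X i j (-1) * stW X i j v = stW X i j (u * v) := by
  obtain ⟨m, hmi, hmj⟩ := h3 i j
  have h1 : stW X i j u * X j i 1 = X i j (-(u * 1 * u)) * stW X i j u := by
    rw [← hX.cjW_ji hij hmi hmj u 1, cj]; group
  have h2 : X j i 1 * stW X i j v = stW X i j v * X i j (-(v * 1 * v)) := by
    have h := hX.cjW_ji hij hmi hmj (-v) 1
    rw [← hX.W_inv hij] at h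
    simp only [Units.val_neg, neg_mul, mul_neg, neg_neg] at h
    rw [← h, cj]; group
  have e1 : (u : R) * (u⁻¹ : Rˣ) = 1 := Units.mul_inv _
  have e2 : (v : R) * (v⁻¹ : Rˣ) = 1 := Units.mul_inv _
  calc stW X i j u * stW X i j (-1) * stW X i j v
      = (stW X i j u * X j i 1) * X i j (-1) * (X j i 1 * stW X i j v) := by
        rw [hX.W_neg_one h3 hij]; group
    _ = (X i j (-(u * 1 * u)) * X i j u) * (X j i (-((u⁻¹ : Rˣ) : R)) *
          (X i j u * X i j (-1) * X i j v) * X j i (-((v⁻¹ : Rˣ) : R))) *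
          (X i j v * X i j (-(v * 1 * v))) := by
        rw [h1, h2]; simp only [stW]; group
    _ = stW X i j (u * v) := by
        rw [hX.add hij, hX.add hij, hX.add hij, hX.add hij,
          show (u : R) + -1 + v = 0 by linear_combination huv, hX.zero hij,
          mul_one (X j i _), hX.add hij.symm, stW]
        congr 2
        · congr 1; simp only [Units.val_mul]; linear_combination (-(u : R)) * huv
        · congr 1; simp only [Units.val_mul, mul_inv_rev]
          linear_combination (-((u⁻¹ : Rˣ) : R) * ((v⁻¹ : Rˣ) : R)) * huv +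
            ((v⁻¹ : Rˣ) : R) * e1 + ((u⁻¹ : Rˣ) : R) * e2
        · simp only [Units.val_mul]; linear_combination (-(v : R)) * huv

omit [DecidableEq ι] in
theorem H_commute_steinberg (hX : IsStSys X) (h3 : Avoid2 ι) {i j : ι} (hij : i ≠ j) (u v : Rˣ)
    (huv : (u : R) + v = 1) : Commute (stH X i j u) (stH X i j v) := by
  have h1 := hX.W_steinberg h3 hij u v huv
  have h2 := hX.W_steinberg h3 hij v u (by rw [add_comm]; exact huv)
  change stH X i j u * stH X i j v = stH X i j v * stH X i j u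
  simp only [stH]
  rw [← mul_assoc, ← mul_assoc (stW X i j v * _), h1, h2, mul_comm u v]

end IsStSys

omit [DecidableEq ι] in
theorem map_stH {G' : Type*} [Group G'] (p : G →* G') (i j : ι) (u : Rˣ) :
    p (stH X i j u) = stH (fun i j a => p (X i j a)) i j u := by
  simp only [stH, stW, map_mul]

end Crest.Agent.R171
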