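import Crest.Agent.R171.Symbol

/-!
The Steinberg relation for torus classes, and the resulting symbol.
-/

set_option autoImplicit false

namespace Crest.Agent.R171

open Crest.AlgebraR.Steinberg

variable {R : Type*} [CommRing R] {M : Type*} [AddCommGroup M]

theorem tor_H_main {f : St R → St R → St R → M} (hf : IsCocycle3 f) {k : St R} {d : ℕ → Rˣ}
    (hk : Diag (xx R) k d) (e : Fin 5 → ℕ) (he : Function.Injective e) {w : Rˣ}
    (hd : ∀ i, d (e i) = w) (u v : Rˣ) (huv : (u : R) + v = 1) :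
    tor f (stH (xx R) (e 0) (e 1) u) (stH (xx R) (e 0) (e 1) v) k = 0 := by
  have hX : IsStSys (fun i j a => xx R (e i) (e j) a) :=
    ⟨fun h a b => (xx_stSys R).add (he.ne h) a b,
     fun h1 h2 h3 h4 a b => (xx_stSys R).comm (he.ne h1) (he.ne h2) (he.ne h3) (he.ne h4) a b,
     fun h1 h2 h3 a b => (xx_stSys R).mul (he.ne h1) (he.ne h2) (he.ne h3) a b⟩
  refine tor_H_steinberg hX avoid4_fin5 hf (k := k) (fun i j a => ?_) (i := 0) (j := 1)
    (by decide) u v huv
  by_cases hij : i = j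
  · subst hij; simp only [xx_self]; exact Commute.one_left _
  · exact (hk.commute (he.ne hij) (by rw [hd, hd]) a).symm

theorem tor_steinberg {f : St R → St R → St R → M} (hf : IsCocycle3 f) {p q r s : ℕ}
    (h : Dist4 p q r s) (hp : p < 4) (hq : q < 4) (hr : r < 4) (hs : s < 4) {u v w : Rˣ}
    (huv : (u : R) + v = 1) {g₁ g₂ g₃ : St R} (h₁ : Diag (xx R) g₁ (d4 p q r s u))
    (h₂ : Diag (xx R) g₂ (d4 p r q s v)) (h₃ : Diag (xx R) g₃ (d4 p s q r w)) :
    tor f g₁ g₂ g₃ = 0 := by
  have h' : Dist4 p q s r := ⟨h.pq, h.ps, h.pr, h.qs, h.qr, h.rs.symm⟩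
  have h'' : Dist4 p r s q := ⟨h.pr, h.ps, h.pq, h.rs, h.qr.symm, h.qs.symm⟩
  have c12 : Commute g₁ g₂ := commute_lifts h h₁ h₂
  have c13 : Commute g₁ g₃ := commute_lifts h' (h₁.congr (d4_swap_right _ _ _ _ _)) h₃
  have c23 : Commute g₂ g₃ := commute_lifts h'' (h₂.congr (d4_swap_right _ _ _ _ _))
    (h₃.congr (d4_swap_right _ _ _ _ _))
  have hX := xx_stSys R
  -- values of the diagonals at fresh indices
  have f1 : ∀ k, 4 ≤ k → d4 p q r s u k = 1 := fun k hk => by
    simp only [d4]; rw [if_neg (by omega), if_neg (by omega)]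
  have f2 : ∀ k, 4 ≤ k → d4 p r q s v k = 1 := fun k hk => by
    simp only [d4]; rw [if_neg (by omega), if_neg (by omega)]
  have step : ∀ (i j : ℕ) (g : St R), 4 ≤ i → 4 ≤ j → i ≠ j → Commute g₁ g → Commute g₂ g →
      tor f g₁ g₂ (g * stH (xx R) i j w) = tor f g₁ g₂ g ∧
      Commute g₁ (g * stH (xx R) i j w) ∧ Commute g₂ (g * stH (xx R) i j w) := by
    intro i j g hi hj hij a1 a2
    have b1 : Commute g₁ (stH (xx R) i j w) := h₁.commute_H hij (by rw [f1 i hi, f1 j hj]) w
    have b2 : Commute g₂ (stH (xx R) i j w) := h₂.commute_H hij (by rw [f2 i hi, f2 j hj]) w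
    refine ⟨?_, a1.mul_right b1, a2.mul_right b2⟩
    rw [tor_mul_right hf c12 a1 b1 a2 b2, ← tor_rot f (stH (xx R) i j w),
      tor_H_left hX hf h₁ h₂ c12 hij (m := i + j + 4) (by omega) (by omega)
        (by rw [f1 i hi, f1 _ (by omega)]) (by rw [f1 j hj, f1 _ (by omega)])
        (by rw [f2 i hi, f2 _ (by omega)]) (by rw [f2 j hj, f2 _ (by omega)]), add_zero]
  obtain ⟨t1, a1, a2⟩ := step 4 7 g₃ (by omega) (by omega) (by omega) c13 c23
  obtain ⟨t2, a1, a2⟩ := step 5 8 _ (by omega) (by omega) (by omega) a1 a2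
  obtain ⟨t3, a1, a2⟩ := step 6 9 _ (by omega) (by omega) (by omega) a1 a2
  rw [← t1, ← t2, ← t3]
  have hk := ((h₃.mul (diag_xx_H (show 4 ≠ 7 by omega) w)).mul
    (diag_xx_H (show 5 ≠ 8 by omega) w)).mul (diag_xx_H (show 6 ≠ 9 by omega) w)
  generalize g₃ * stH (xx R) 4 7 w * stH (xx R) 5 8 w * stH (xx R) 6 9 w = k at *
  generalize hdk : d4 p s q r w * hd 4 7 w * hd 5 8 w * hd 6 9 w = dk at hk
  obtain ⟨n1, n2, n3, n4, n5, n6⟩ := id h
  have kp : ∀ i, i = p ∨ i = s ∨ i = 4 ∨ i = 5 ∨ i = 6 → dk i = w := by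
    intro i hi
    rw [← hdk]
    simp only [d4, hd, Pi.mul_apply]
    split_ifs <;> first | omega | simp
  have km : ∀ i, i = q ∨ i = r ∨ i = 7 ∨ i = 8 ∨ i = 9 → dk i = w⁻¹ := by
    intro i hi
    rw [← hdk]
    simp only [d4, hd, Pi.mul_apply]
    split_ifs <;> first | omega | simp
  -- replace g₁, g₂ by the standard lifts
  have H₁ := (diag_HH h' u).congr (d4_swap_right _ _ _ _ _)
  have H₂ := diag_HH' h v
  have cps : ∀ t : Rˣ, Commute (stH (xx R) p s t) k := fun t =>
    (hk.commute_H h.ps (by rw [kp p (by simp), kp s (by simp)]) t).symm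
  have cqr : ∀ t : Rˣ, Commute (stH (xx R) q r t) k := fun t =>
    (hk.commute_H h.qr (by rw [km q (by simp), km r (by simp)]) t).symm
  have s1 : Commute (stH (xx R) p s u) (stH (xx R) p s v) :=
    hX.H_commute_steinberg avoid2_nat h.ps u v huv
  have s2 : Commute (stH (xx R) q r u) (stH (xx R) q r v) :=
    hX.H_commute_steinberg avoid2_nat h.qr u v huv
  have s3 := commute_HH h u v
  have s4 := (commute_HH h v u).symm
  rw [tor_congr_left hf h₁ H₁ (commute_lifts h H₁ h₂) ((cps u).mul_left (cqr u)) a2,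
    tor_swap12, tor_congr_left hf h₂ H₂ (commute_lifts h H₁ H₂).symm
      ((cps v).mul_left (cqr v).inv_left) ((cps u).mul_left (cqr u)), ← tor_swap12,
    tor_mul_left hf (s1.mul_right s3.inv_right) (cps u) (s4.mul_right s2.inv_right) (cqr u)
      ((cps v).mul_left (cqr v).inv_left),
    tor_mul_mid hf s1 s3.inv_right (cps u) (cps v) (cqr v).inv_left,
    tor_mul_mid hf s4 s2.inv_right (cqr u) (cps v) (cqr v).inv_left,
    tor_inv_mid hf s3 (cps u) (cqr v), tor_inv_mid hf s2 (cqr u) (cqr v)]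
  have m1 : tor f (stH (xx R) p s u) (stH (xx R) p s v) k = 0 := by
    refine tor_H_main hf hk ![p, s, 4, 5, 6] ?_ (w := w) ?_ u v huv
    · intro i j hij
      fin_cases i <;> fin_cases j <;> simp at hij ⊢ <;> omega
    · intro i
      apply kp
      fin_cases i <;> simp
  have m2 : tor f (stH (xx R) q r u) (stH (xx R) q r v) k = 0 := by
    refine tor_H_main hf hk ![q, r, 7, 8, 9] ?_ (w := w⁻¹) ?_ u v huv
    · intro i j hij
      fin_cases i <;> fin_cases j <;> simp at hij ⊢ <;> omega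
    · intro i
      apply km
      fin_cases i <;> simp
  have m3 : tor f (stH (xx R) p s u) (stH (xx R) q r v) k = 0 := by
    refine tor_H_left hX hf (diag_xx_H h.qr v) hk (cqr v) h.ps (m := 4) (by omega) (by omega)
      ?_ ?_ (by rw [kp p (by simp), kp 4 (by simp)]) (by rw [kp s (by simp), kp 4 (by simp)]) u
    all_goals simp only [hd]; split_ifs <;> first | omega | rfl
  have m4 : tor f (stH (xx R) q r u) (stH (xx R) p s v) k = 0 := by
    refine tor_H_left hX hf (diag_xx_H h.ps v) hk (cps v) h.qr (m := 7) (by omega) (by omega)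
      ?_ ?_ (by rw [km q (by simp), km 7 (by simp)]) (by rw [km r (by simp), km 7 (by simp)]) u
    all_goals simp only [hd]; split_ifs <;> first | omega | rfl
  rw [m1, m2, m3, m4]
  simp

/-- The three standard commuting lifts. -/
def g1 (u : Rˣ) : St R := stH (xx R) 0 2 u * stH (xx R) 1 3 u
/-- The three standard commuting lifts. -/
def g2 (u : Rˣ) : St R := stH (xx R) 0 1 u * stH (xx R) 2 3 u
/-- The three standard commuting lifts. -/
def g3 (u : Rˣ) : St R := stH (xx R) 0 1 u * stH (xx R) 3 2 u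

theorem diag_g1 (u : Rˣ) : Diag (xx R) (g1 u) (d4 0 1 2 3 u) :=
  diag_HH ⟨by omega, by omega, by omega, by omega, by omega, by omega⟩ u
theorem diag_g2 (u : Rˣ) : Diag (xx R) (g2 u) (d4 0 2 1 3 u) :=
  diag_HH ⟨by omega, by omega, by omega, by omega, by omega, by omega⟩ u
theorem diag_g3 (u : Rˣ) : Diag (xx R) (g3 u) (d4 0 3 1 2 u) :=
  diag_HH ⟨by omega, by omega, by omega, by omega, by omega, by omega⟩ u

theorem commute_12 {u v : Rˣ} {g g' : St R} (h : Diag (xx R) g (d4 0 1 2 3 u))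
    (h' : Diag (xx R) g' (d4 0 2 1 3 v)) : Commute g g' :=
  commute_lifts ⟨by omega, by omega, by omega, by omega, by omega, by omega⟩ h h'
theorem commute_13 {u v : Rˣ} {g g' : St R} (h : Diag (xx R) g (d4 0 1 2 3 u))
    (h' : Diag (xx R) g' (d4 0 3 1 2 v)) : Commute g g' :=
  commute_lifts ⟨by omega, by omega, by omega, by omega, by omega, by omega⟩
    (h.congr (d4_swap_right _ _ _ _ _)) h'
theorem commute_23 {u v : Rˣ} {g g' : St R} (h : Diag (xx R) g (d4 0 2 1 3 u))
    (h' : Diag (xx R) g' (d4 0 3 1 2 v)) : Commute g g' :=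
  commute_lifts ⟨by omega, by omega, by omega, by omega, by omega, by omega⟩
    (h.congr (d4_swap_right _ _ _ _ _)) (h'.congr (d4_swap_right _ _ _ _ _))

/-- The symbol attached to a 3-cocycle on the Steinberg group. -/
def symb (f : St R → St R → St R → M) (u v w : Rˣ) : M := tor f (g1 u) (g2 v) (g3 w)

/-- A trilinear function with the Steinberg relations. -/
structure IsSymbol (S : Rˣ → Rˣ → Rˣ → M) : Prop where
  mul1 : ∀ u u' v w, S (u * u') v w = S u v w + S u' v w
  mul2 : ∀ u v v' w, S u (v * v') w = S u v w + S u v' w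
  mul3 : ∀ u v w w', S u v (w * w') = S u v w + S u v w'
  st12 : ∀ u v w : Rˣ, (u : R) + v = 1 → S u v w = 0
  st13 : ∀ u v w : Rˣ, (u : R) + w = 1 → S u v w = 0
  st23 : ∀ u v w : Rˣ, (v : R) + w = 1 → S u v w = 0

theorem symb_isSymbol {f : St R → St R → St R → M} (hf : IsCocycle3 f) : IsSymbol (symb f) where
  mul1 u u' v w := by
    have h := ((diag_g1 u).mul (diag_g1 u')).congr (d4_mul _ _ _ _ _ _).symm
    simp only [symb]
    rw [tor_congr_left hf (diag_g1 _) h (commute_12 h (diag_g2 v)) (commute_13 h (diag_g3 w))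
      (commute_23 (diag_g2 v) (diag_g3 w)),
      tor_mul_left hf (commute_12 (diag_g1 _) (diag_g2 v)) (commute_13 (diag_g1 _) (diag_g3 w))
      (commute_12 (diag_g1 _) (diag_g2 v)) (commute_13 (diag_g1 _) (diag_g3 w))
      (commute_23 (diag_g2 v) (diag_g3 w))]
  mul2 u v v' w := by
    have h := ((diag_g2 v).mul (diag_g2 v')).congr (d4_mul _ _ _ _ _ _).symm
    simp only [symb]
    rw [tor_rot, tor_congr_left hf (diag_g2 _) h (commute_23 h (diag_g3 w))
      (commute_12 (diag_g1 u) h).symm (commute_13 (diag_g1 u) (diag_g3 w)).symm,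
      tor_mul_left hf (commute_23 (diag_g2 _) (diag_g3 w)) (commute_12 (diag_g1 u) (diag_g2 _)).symm
      (commute_23 (diag_g2 _) (diag_g3 w)) (commute_12 (diag_g1 u) (diag_g2 _)).symm
      (commute_13 (diag_g1 u) (diag_g3 w)).symm, tor_rot f (g1 u), tor_rot f (g1 u)]
  mul3 u v w w' := by
    have h := ((diag_g3 w).mul (diag_g3 w')).congr (d4_mul _ _ _ _ _ _).symm
    simp only [symb]
    rw [← tor_rot f (g3 _), tor_congr_left hf (diag_g3 _) h (commute_13 (diag_g1 u) h).symm
      (commute_23 (diag_g2 v) h).symm (commute_12 (diag_g1 u) (diag_g2 v)),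
      tor_mul_left hf (commute_13 (diag_g1 u) (diag_g3 _)).symm
      (commute_23 (diag_g2 v) (diag_g3 _)).symm (commute_13 (diag_g1 u) (diag_g3 _)).symm
      (commute_23 (diag_g2 v) (diag_g3 _)).symm (commute_12 (diag_g1 u) (diag_g2 v)),
      tor_rot f (g3 w), tor_rot f (g3 w')]
  st12 u v w huv :=
    tor_steinberg hf ⟨by omega, by omega, by omega, by omega, by omega, by omega⟩
      (by omega) (by omega) (by omega) (by omega) huv (diag_g1 u) (diag_g2 v) (diag_g3 w)
  st13 u v w huw := by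
    simp only [symb]
    rw [tor_swap23, neg_eq_zero]
    exact tor_steinberg hf (p := 0) (q := 1) (r := 3) (s := 2)
      ⟨by omega, by omega, by omega, by omega, by omega, by omega⟩
      (by omega) (by omega) (by omega) (by omega) huw
      ((diag_g1 u).congr (d4_swap_right _ _ _ _ _)) (diag_g3 w) (diag_g2 v)
  st23 u v w hvw := by
    simp only [symb]
    rw [tor_rot]
    exact tor_steinberg hf (p := 0) (q := 2) (r := 3) (s := 1)
      ⟨by omega, by omega, by omega, by omega, by omega, by omega⟩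
      (by omega) (by omega) (by omega) (by omega) hvw
      ((diag_g2 v).congr (d4_swap_right _ _ _ _ _)) ((diag_g3 w).congr (d4_swap_right _ _ _ _ _))
      (diag_g1 u)

namespace IsSymbol

variable {F : Type*} [Field F] {S : Fˣ → Fˣ → Fˣ → M}

theorem one1 (h : IsSymbol S) (v w : Fˣ) : S 1 v w = 0 := by
  have := h.mul1 1 1 v w
  rw [one_mul] at this
  linear_combination (norm := abel1) - this

theorem one2 (h : IsSymbol S) (u w : Fˣ) : S u 1 w = 0 := by
  have := h.mul2 u 1 1 w
  rw [one_mul] at this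
  linear_combination (norm := abel1) - this

theorem one3 (h : IsSymbol S) (u v : Fˣ) : S u v 1 = 0 := by
  have := h.mul3 u v 1 1
  rw [one_mul] at this
  linear_combination (norm := abel1) - this

theorem neg23 (h : IsSymbol S) (u x : Fˣ) (hx : (1 : F) - x ≠ 0) : S u x (-x) = 0 := by
  have hx0 : (x : F) ≠ 0 := x.ne_zero
  have hx' : (1 : F) - (x⁻¹ : Fˣ) ≠ 0 := by
    intro h0
    apply hx
    rw [Units.val_inv_eq_inv_val] at h0
    field_simp at h0
    linear_combination - h0
  have e : Units.mk0 _ hx = (-x) * Units.mk0 _ hx' := by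
    ext
    simp only [Units.val_mk0, Units.val_mul, Units.val_neg, Units.val_inv_eq_inv_val]
    field_simp
    ring
  have h1 := h.st23 u x (Units.mk0 _ hx) (by simp)
  have h2 := h.st23 u x⁻¹ (Units.mk0 _ hx') (by simp)
  have h3 := h.mul2 u x x⁻¹ (Units.mk0 _ hx')
  rw [mul_inv_cancel, h.one2, h2] at h3
  rw [e, h.mul3] at h1
  linear_combination (norm := abel1) h1 + h3

/-- The key vanishing in the Milnor K-theory of a field. -/
theorem key (h : IsSymbol S) (x y b U V W : Fˣ) (hx : (1 : F) - x ≠ 0)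
    (hxy : (1 : F) + x * y ≠ 0) (hrel : ((1 : F) - x) ^ 5 = (1 + x * y) * (1 - b * x * y))
    (hU : (U : F) * (1 - x) = 1 - b * x * y) (hV : (V : F) * (1 - x) = b * y - 1)
    (hW : (W : F) = -b) : S U V W = 0 := by
  have hb : (1 : F) - b * x * y ≠ 0 := by
    intro h0
    rw [h0, mul_zero] at hrel
    exact hx (pow_eq_zero_iff (by norm_num) |>.mp hrel)
  set P : Fˣ := Units.mk0 _ hx with hP
  set Q : Fˣ := Units.mk0 _ hxy with hQ
  set N : Fˣ := Units.mk0 _ hb with hN
  have e1 : U * P = N := by ext; simpa [hP, hN] using hU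
  have e2 : P * (P * (P * (P * P))) = Q * N := by
    ext; simp only [hP, hQ, hN, Units.val_mul, Units.val_mk0]; rw [← hrel]; ring
  -- U + V x = 1
  have a1 : S U (V * x) W = 0 := h.st12 _ _ _ (by
    have : ((U : F) + (V * x : Fˣ)) * (1 - x) = 1 * (1 - x) := by
      simp only [Units.val_mul]; linear_combination hU + (x : F) * hV
    exact mul_right_cancel₀ hx this)
  have a2 : ∀ t, S P x t = 0 := fun t => h.st12 _ _ _ (by simp [hP])
  have a3 : S N x (W * ((-x) * y)) = 0 := h.st13 _ _ _ (by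
    simp only [hN, Units.val_mul, Units.val_mk0, Units.val_neg, hW]; ring)
  have a4 : S Q x ((-x) * y) = 0 := h.st13 _ _ _ (by
    simp only [hQ, Units.val_mul, Units.val_mk0, Units.val_neg]; ring)
  have a5 := h.neg23 N x hx
  have a6 := h.neg23 Q x hx
  have a7 : S (Q * N) x y = 0 := by
    rw [← e2, h.mul1, h.mul1, h.mul1, h.mul1, a2]; simp
  have a8 : S N x W = S U x W := by rw [← e1, h.mul1, a2, add_zero]
  rw [h.mul2] at a1
  rw [h.mul3, h.mul3] at a3
  rw [h.mul3] at a4
  rw [h.mul1] at a7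
  linear_combination (norm := abel1) a1 + a8 - a3 + a5 + a7 - a4 + a6

end IsSymbol

end Crest.Agent.R171
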