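import Crest.Prelude.Def_Steinberg
import Crest.Agent.R171.Kervaire

/-!
Torus classes of lifts of diagonal matrices in the stable Steinberg group: a trilinear symbol
with the Steinberg relations.
-/

set_option autoImplicit false

namespace Crest.Agent.R171

open Crest.AlgebraR.Steinberg

variable {R : Type*} [CommRing R] {M : Type*} [AddCommGroup M]

/-- The generators of the Steinberg group as group elements. -/
def xx (R : Type*) [CommRing R] (i j : ℕ) (a : R) : St R :=
  if h : i ≠ j then PresentedGroup.mk (rels R) (x i j h a) else 1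

theorem xx_of_ne {i j : ℕ} (h : i ≠ j) (a : R) :
    xx R i j a = PresentedGroup.mk (rels R) (x i j h a) := dif_pos h

theorem xx_self (i : ℕ) (a : R) : xx R i i a = 1 := dif_neg (by simp)

theorem xx_stSys (R : Type*) [CommRing R] : IsStSys (xx R) := by
  refine ⟨fun {i j} h a b => ?_, fun {i j k l} hij hkl hjk hil a b => ?_,
    fun {i j l} hij hjl hil a b => ?_⟩
  · have := PresentedGroup.one_of_mem (rels := rels R) (Or.inl (Or.inl ⟨i, j, h, a, b, rfl⟩))
    simp only [map_mul, map_inv] at this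
    rw [xx_of_ne h, xx_of_ne h, xx_of_ne h]
    exact mul_inv_eq_one.mp this
  · have := PresentedGroup.one_of_mem (rels := rels R)
      (Or.inl (Or.inr ⟨i, j, k, l, hij, hkl, a, b, hjk, hil, rfl⟩))
    simp only [map_mul, map_inv] at this
    rw [xx_of_ne hij, xx_of_ne hkl]
    exact commute_of_cm this
  · have := PresentedGroup.one_of_mem (rels := rels R)
      (Or.inr ⟨i, j, l, hij, hjl, hil, a, b, rfl⟩)
    simp only [map_mul, map_inv] at this
    rw [xx_of_ne hij, xx_of_ne hjl, xx_of_ne hil]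
    exact mul_inv_eq_one.mp this

/-- Universal property of the Steinberg group. -/
def stLift {E : Type*} [Group E] {Y : ℕ → ℕ → R → E} (hY : IsStSys Y) : St R →* E :=
  PresentedGroup.toGroup (f := fun g : Gen R => Y g.1.1.1 g.1.1.2 g.2) (by
    rintro w ((⟨i, j, h, a, b, rfl⟩ | ⟨i, j, k, l, hij, hkl, a, b, hjk, hil, rfl⟩) |
      ⟨i, j, l, hij, hjl, hil, a, b, rfl⟩)
    · simp only [x, map_mul, map_inv, FreeGroup.lift_apply_of]
      rw [hY.add h, mul_inv_cancel]
    · simp only [x, map_mul, map_inv, FreeGroup.lift_apply_of]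
      exact cm_of_commute (hY.comm hij hkl hjk hil a b)
    · simp only [x, map_mul, map_inv, FreeGroup.lift_apply_of]
      rw [hY.mul hij hjl hil, mul_inv_cancel])

theorem stLift_xx {E : Type*} [Group E] {Y : ℕ → ℕ → R → E} (hY : IsStSys Y) {i j : ℕ}
    (h : i ≠ j) (a : R) : stLift hY (xx R i j a) = Y i j a := by
  rw [xx_of_ne h]
  exact PresentedGroup.toGroup.of _

theorem st_hom_ext {E : Type*} [Group E] {φ ψ : St R →* E}
    (h : ∀ i j, i ≠ j → ∀ a, φ (xx R i j a) = ψ (xx R i j a)) : φ = ψ := by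
  apply PresentedGroup.ext
  rintro ⟨⟨⟨i, j⟩, hij⟩, a⟩
  have := h i j hij a
  rw [xx_of_ne hij] at this
  exact this

theorem avoid4_nat : Avoid4 ℕ := fun i j k l =>
  ⟨i + j + k + l + 1, by omega, by omega, by omega, by omega⟩

theorem avoid2_nat : Avoid2 ℕ := avoid4_nat.avoid2

theorem avoid4_fin5 : Avoid4 (Fin 5) := by unfold Avoid4; decide

theorem central_of_diag_one {g : St R} (h : Diag (xx R) g 1) (y : St R) : Commute g y := by
  have : (MulAut.conj g).toMonoidHom = MonoidHom.id (St R) := by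
    apply st_hom_ext
    intro i j hij a
    exact cj_of_commute (h.commute hij rfl a)
  apply commute_of_cj
  exact DFunLike.congr_fun this y

theorem central_of_diag {g g' : St R} {d : ℕ → Rˣ} (h : Diag (xx R) g d)
    (h' : Diag (xx R) g' d) (y : St R) : Commute (g * g'⁻¹) y :=
  central_of_diag_one ((h.mul h'.inv).congr (mul_inv_cancel d)) y

theorem central_cm {g g' : St R} {d d' : ℕ → Rˣ} (h : Diag (xx R) g d)
    (h' : Diag (xx R) g' d') (y : St R) : Commute (cm g g') y :=
  central_of_diag_one ((((h.mul h').mul h.inv).mul h'.inv).congr (by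
    rw [mul_comm d d']; group)) y

theorem cm_congr_diag {g₁ g₂ g₁' g₂' : St R} {d d' : ℕ → Rˣ} (h₁ : Diag (xx R) g₁ d)
    (h₂ : Diag (xx R) g₂ d) (h₁' : Diag (xx R) g₁' d') (h₂' : Diag (xx R) g₂' d') :
    cm g₁ g₁' = cm g₂ g₂' := by
  have e1 : g₁ = (g₁ * g₂⁻¹) * g₂ := by group
  have e2 : g₁' = (g₁' * g₂'⁻¹) * g₂' := by group
  rw [e1, e2, cm_central_left (central_of_diag h₁ h₂), cm_central_right (central_of_diag h₁' h₂')]

/-- The second homology of the Steinberg group vanishes (in the form needed here). -/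
theorem cocycle2_symm {φ : St R → St R → M} (hφ : IsCocycle2 φ) {g g' : St R}
    (h : Commute g g') : φ g g' = φ g' g := by
  obtain ⟨Y, hY, hpY⟩ := kervaire (p := CExt.proj φ hφ) CExt.proj_surjective CExt.proj_central
    (xx_stSys R) avoid4_nat
  have hs : (CExt.proj φ hφ).comp (stLift hY) = MonoidHom.id (St R) := by
    apply st_hom_ext
    intro i j hij a
    rw [MonoidHom.comp_apply, stLift_xx hY hij, hpY i j hij, MonoidHom.id_apply]
  have hs' : ∀ g, CExt.proj φ hφ (stLift hY g) = g := fun g => DFunLike.congr_fun hs g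
  have := CExt.symm_of_commute (h.map (stLift hY))
  rwa [hs', hs'] at this

theorem tor_central {f : St R → St R → St R → M} (hf : IsCocycle3 f) {z g g' : St R}
    (hz : ∀ y, Commute z y) (h : Commute g g') : tor f z g g' = 0 := by
  rw [tor_rot, tor_eq_slant, sub_eq_zero]
  exact cocycle2_symm (φ := slant f z)
    (fun a b c => slant_cocycle hf (hz a).symm (hz b).symm (hz c).symm) h

theorem tor_congr_left {f : St R → St R → St R → M} (hf : IsCocycle3 f) {a a' b c : St R}
    {d : ℕ → Rˣ} (ha : Diag (xx R) a d) (ha' : Diag (xx R) a' d) (hab : Commute a' b)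
    (hac : Commute a' c) (hbc : Commute b c) : tor f a b c = tor f a' b c := by
  have e : a = (a * a'⁻¹) * a' := by group
  have hz := central_of_diag ha ha'
  rw [e, tor_mul_left hf (hz b) (hz c) hab hac hbc, tor_central hf hz hbc, zero_add]

theorem commute_congr_diag {a a' b : St R} {d : ℕ → Rˣ} (ha : Diag (xx R) a d)
    (ha' : Diag (xx R) a' d) (hab : Commute a' b) : Commute a b := by
  have e : a = (a * a'⁻¹) * a' := by group
  rw [e]
  exact (central_of_diag ha ha' b).mul_left hab

section general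

variable {ι G : Type*} [Group G] {X : ι → ι → R → G}

theorem commute_H {g : G} {i j : ι} (h1 : ∀ a, Commute g (X i j a))
    (h2 : ∀ a, Commute g (X j i a)) (v : Rˣ) : Commute g (stH X i j v) := by
  simp only [stH, stW]
  exact (((h1 _).mul_right (h2 _)).mul_right (h1 _)).mul_right
    (((h1 _).mul_right (h2 _)).mul_right (h1 _))

theorem Diag.commute_H {g : G} {d : ι → Rˣ} (h : Diag X g d) {i j : ι} (hij : i ≠ j)
    (e : d i = d j) (v : Rˣ) : Commute g (stH X i j v) :=
  Crest.Agent.R171.commute_H (h.commute hij e) (h.commute hij.symm e.symm) v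

theorem tor_X_left (hX : IsStSys X) {f : G → G → G → M} (hf : IsCocycle3 f) {b c : G}
    {d d' : ι → Rˣ} (hb : Diag X b d) (hc : Diag X c d') (hbc : Commute b c) {i j m : ι}
    (hij : i ≠ j) (hmi : m ≠ i) (hmj : m ≠ j) (e1 : d i = d m) (e2 : d j = d m)
    (e1' : d' i = d' m) (e2' : d' j = d' m) (a : R) : tor f (X i j a) b c = 0 := by
  have h := hX.mul hmi.symm hmj hij a 1
  rw [mul_one] at h
  rw [← h]
  exact tor_commutator_left hf (hb.commute hmi.symm e1 _).symm (hc.commute hmi.symm e1' _).symm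
    (hb.commute hmj e2.symm _).symm (hc.commute hmj e2'.symm _).symm hbc

theorem tor_H_left (hX : IsStSys X) {f : G → G → G → M} (hf : IsCocycle3 f) {b c : G}
    {d d' : ι → Rˣ} (hb : Diag X b d) (hc : Diag X c d') (hbc : Commute b c) {i j m : ι}
    (hij : i ≠ j) (hmi : m ≠ i) (hmj : m ≠ j) (e1 : d i = d m) (e2 : d j = d m)
    (e1' : d' i = d' m) (e2' : d' j = d' m) (u : Rˣ) : tor f (stH X i j u) b c = 0 := by
  have p1 : ∀ a, Commute (X i j a) b := fun a => (hb.commute hij (e1.trans e2.symm) a).symm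
  have p2 : ∀ a, Commute (X j i a) b := fun a => (hb.commute hij.symm (e2.trans e1.symm) a).symm
  have q1 : ∀ a, Commute (X i j a) c := fun a => (hc.commute hij (e1'.trans e2'.symm) a).symm
  have q2 : ∀ a, Commute (X j i a) c :=
    fun a => (hc.commute hij.symm (e2'.trans e1'.symm) a).symm
  have t1 := tor_X_left hX hf hb hc hbc hij hmi hmj e1 e2 e1' e2'
  have t2 := tor_X_left hX hf hb hc hbc hij.symm hmj hmi e2 e1 e2' e1'
  have hW : ∀ w : Rˣ, tor f (stW X i j w) b c = 0 := by
    intro w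
    rw [stW, tor_mul_left hf ((p1 _).mul_left (p2 _)) ((q1 _).mul_left (q2 _)) (p1 _) (q1 _) hbc,
      tor_mul_left hf (p1 _) (q1 _) (p2 _) (q2 _) hbc, t1, t2, add_zero, add_zero]
  have pW : ∀ w : Rˣ, Commute (stW X i j w) b := fun w =>
    ((p1 _).mul_left (p2 _)).mul_left (p1 _)
  have qW : ∀ w : Rˣ, Commute (stW X i j w) c := fun w =>
    ((q1 _).mul_left (q2 _)).mul_left (q1 _)
  rw [stH, tor_mul_left hf (pW _) (qW _) (pW _) (qW _) hbc, hW, hW, add_zero]

end general

/-- The diagonal matrix with `u` at `p, q` and `u⁻¹` at `r, s`. -/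
def d4 (p q r s : ℕ) (u : Rˣ) : ℕ → Rˣ :=
  fun k => if k = p ∨ k = q then u else if k = r ∨ k = s then u⁻¹ else 1

theorem d4_swap_right (p q r s : ℕ) (u : Rˣ) : d4 p q r s u = d4 p q s r u := by
  funext k; simp only [d4, or_comm]

theorem d4_mul (p q r s : ℕ) (u v : Rˣ) : d4 p q r s (u * v) = d4 p q r s u * d4 p q r s v := by
  funext k; simp only [d4, Pi.mul_apply]; split_ifs <;> simp [mul_comm]

/-- Four pairwise distinct indices. -/
structure Dist4 (p q r s : ℕ) : Prop where
  pq : p ≠ q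
  pr : p ≠ r
  ps : p ≠ s
  qr : q ≠ r
  qs : q ≠ s
  rs : r ≠ s

theorem diag_xx_H {i j : ℕ} (hij : i ≠ j) (u : Rˣ) : Diag (xx R) (stH (xx R) i j u) (hd i j u) :=
  (xx_stSys R).diag_H avoid2_nat hij u

theorem diag_HH {p q r s : ℕ} (h : Dist4 p q r s) (u : Rˣ) :
    Diag (xx R) (stH (xx R) p r u * stH (xx R) q s u) (d4 p q r s u) := by
  refine ((diag_xx_H h.pr u).mul (diag_xx_H h.qs u)).congr ?_
  obtain ⟨h1, h2, h3, h4, h5, h6⟩ := h
  funext k
  simp only [d4, hd, Pi.mul_apply]
  split_ifs <;> first | omega | simp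

theorem diag_HH' {p q r s : ℕ} (h : Dist4 p q r s) (u : Rˣ) :
    Diag (xx R) (stH (xx R) p s u * (stH (xx R) q r u)⁻¹) (d4 p r q s u) := by
  refine ((diag_xx_H h.ps u).mul (diag_xx_H h.qr u).inv).congr ?_
  obtain ⟨h1, h2, h3, h4, h5, h6⟩ := h
  funext k
  simp only [d4, hd, Pi.mul_apply, Pi.inv_apply]
  split_ifs <;> first | omega | simp

theorem commute_HH {p q r s : ℕ} (h : Dist4 p q r s) (u v : Rˣ) :
    Commute (stH (xx R) p s u) (stH (xx R) q r v) :=
  (diag_xx_H h.ps u).commute_H h.qr (by simp [hd, h.pq.symm, h.qs, h.pr.symm, h.rs]) v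

theorem cm_HH {p q r s : ℕ} (h : Dist4 p q r s) (u v : Rˣ) :
    cm (stH (xx R) p s u) (stH (xx R) p s v) = cm (stH (xx R) q r u) (stH (xx R) q r v) := by
  have hn := ((xx_stSys R).acts_W avoid2_nat h.pq 1).mul
    ((xx_stSys R).acts_W avoid2_nat h.rs.symm 1)
  have key : ∀ w : Rˣ, (fun k => hd p s w ((Equiv.swap p q * Equiv.swap s r).symm k)) =
      hd q r w := by
    intro w
    obtain ⟨h1, h2, h3, h4, h5, h6⟩ := h
    funext k
    have : (Equiv.swap p q * Equiv.swap s r).symm k = Equiv.swap s r (Equiv.swap p q k) := rfl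
    rw [this]
    simp only [hd, Equiv.swap_apply_def]
    split_ifs <;> first | omega | rfl
  have h1 := (hn.conj_diag (diag_xx_H h.ps u)).congr (key u)
  have h2 := (hn.conj_diag (diag_xx_H h.ps v)).congr (key v)
  rw [← cm_congr_diag h1 (diag_xx_H h.qr u) h2 (diag_xx_H h.qr v), ← cj_cm,
    cj_of_commute (central_cm (diag_xx_H h.ps u) (diag_xx_H h.ps v) _).symm]

theorem commute_lifts {p q r s : ℕ} (h : Dist4 p q r s) {u v : Rˣ} {g g' : St R}
    (hg : Diag (xx R) g (d4 p q r s u)) (hg' : Diag (xx R) g' (d4 p r q s v)) :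
    Commute g g' := by
  have h' : Dist4 p q s r := ⟨h.pq, h.ps, h.pr, h.qs, h.qr, h.rs.symm⟩
  apply commute_congr_diag hg ((diag_HH h' u).congr (d4_swap_right _ _ _ _ _))
  apply Commute.symm
  apply commute_congr_diag hg' (diag_HH' h v)
  have c1 := commute_HH h u v
  have c2 := commute_HH h v u
  have c3 := commute_HH h u u
  have c4 := commute_HH h v v
  have e := cm_HH h u v
  have hz := central_cm (diag_xx_H (R := R) h.ps u) (diag_xx_H h.ps v)
  generalize stH (xx R) p s u = a at *
  generalize stH (xx R) p s v = a' at *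
  generalize stH (xx R) q r u = b at *
  generalize stH (xx R) q r v = b' at *
  generalize hc : cm a a' = c at *
  have e1 : a * a' = c * (a' * a) := by rw [← hc]; simp only [cm]; group
  have e2 : b'⁻¹ * b = c * (b * b'⁻¹) := by
    calc b'⁻¹ * b = b'⁻¹ * (cm b b' * b') * b * b'⁻¹ := by simp only [cm]; group
      _ = b'⁻¹ * (b' * c) * b * b'⁻¹ := by rw [← e, (hz b').eq]
      _ = _ := by group
  change a' * b'⁻¹ * (a * b) = a * b * (a' * b'⁻¹)
  calc a' * b'⁻¹ * (a * b) = a' * (b'⁻¹ * a) * b := by group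
    _ = a' * a * (b'⁻¹ * b) := by rw [← c1.inv_right.eq]; group
    _ = (a' * a * c) * (b * b'⁻¹) := by rw [e2]; group
    _ = (c * (a' * a)) * (b * b'⁻¹) := by rw [(hz _).eq]
    _ = a * (a' * b) * b'⁻¹ := by rw [← e1]; group
    _ = _ := by rw [c2.eq]; group

end Crest.Agent.R171
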