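import Crest.Agent.R171.Steinberg

/-!
The trace 3-cocycle on the Steinberg group attached to three derivations, and its value on
torus classes of diagonal lifts.
-/

set_option autoImplicit false

namespace Crest.Agent.R171

open Crest.AlgebraR.Steinberg

/-- The monoid of matrix units with a zero and a one adjoined. -/
inductive Br
  | one : Br
  | zero : Br
  | e : ℕ → ℕ → Br

namespace Br

/-- Multiplication of matrix units. -/
def mul : Br → Br → Br
  | one, y => y
  | zero, _ => zero
  | e i j, one => e i j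
  | e _ _, zero => zero
  | e i j, e k l => if j = k then e i l else zero

instance : Monoid Br where
  mul := mul
  one := one
  mul_assoc a b c := by
    change mul (mul a b) c = mul a (mul b c)
    rcases a with _ | _ | ⟨i, j⟩ <;> rcases b with _ | _ | ⟨k, l⟩ <;>
      rcases c with _ | _ | ⟨m, n⟩ <;> simp only [mul] <;> split_ifs <;> simp_all [mul]
  one_mul a := rfl
  mul_one a := by
    change mul a one = a
    cases a <;> rfl

theorem mul_def (a b : Br) : a * b = mul a b := rfl

/-- Trace of a matrix unit. -/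
def tr (T : Type) [CommRing T] : Br → T
  | one => 0
  | zero => 0
  | e i j => if i = j then 1 else 0

theorem tr_comm (T : Type) [CommRing T] (a b : Br) : tr T (a * b) = tr T (b * a) := by
  rw [mul_def, mul_def]
  rcases a with _ | _ | ⟨i, j⟩ <;> rcases b with _ | _ | ⟨k, l⟩ <;> simp only [mul]
  split_ifs <;> simp_all [tr, eq_comm]

end Br

theorem exists_trace_ring (T : Type) [CommRing T] :
    ∃ (Λ : Type) (_ : Ring Λ) (_ : Algebra T Λ) (E : ℕ → ℕ → Λ) (τ : Λ →+ T),
      (∀ i j k l, E i j * E k l = if j = k then E i l else 0) ∧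
      (∀ a b, τ (a * b) = τ (b * a)) ∧ (∀ i (t : T), τ (t • E i i) = t) := by
  refine ⟨MonoidAlgebra T Br, inferInstance, inferInstance,
    fun i j => MonoidAlgebra.single (Br.e i j) 1 - MonoidAlgebra.single Br.zero 1,
    MonoidAlgebra.liftNC (AddMonoidHom.id T) (Br.tr T), ?_, ?_, ?_⟩
  · intro i j k l
    simp only [sub_mul, mul_sub, MonoidAlgebra.single_mul_single, Br.mul_def, Br.mul, mul_one]
    split_ifs <;> simp
  · intro a b
    induction a using MonoidAlgebra.induction_linear with
    | zero => simp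
    | add a a' h h' => simp only [add_mul, mul_add, map_add, h, h']
    | single m r =>
      induction b using MonoidAlgebra.induction_linear with
      | zero => simp
      | add b b' h h' => simp only [add_mul, mul_add, map_add, h, h']
      | single m' r' =>
        simp only [MonoidAlgebra.single_mul_single, MonoidAlgebra.liftNC_single,
          Br.tr_comm T m m', mul_comm r r']
  · intro i t
    simp [smul_sub, MonoidAlgebra.smul_single, MonoidAlgebra.liftNC_single, Br.tr]

section matrixUnits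

variable {A Ω : Type*} [CommRing A] [Ring Ω] (e : ℕ → ℕ → A →+ Ω)
  (he : ∀ i j k l a b, e i j a * e k l b = if j = k then e i l (a * b) else 0)

/-- Elementary matrices as units. -/
def elemU (i j : ℕ) (a : A) : Ωˣ :=
  if h : i ≠ j then
    ⟨1 + e i j a, 1 - e i j a,
      by rw [add_mul, mul_sub, mul_sub, he, if_neg h.symm]; simp,
      by rw [sub_mul, mul_add, mul_add, he, if_neg h.symm]; simp⟩
  else 1

theorem elemU_val {i j : ℕ} (h : i ≠ j) (a : A) : (elemU e he i j a : Ω) = 1 + e i j a := by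
  rw [elemU, dif_pos h]

theorem elemU_inv_val {i j : ℕ} (h : i ≠ j) (a : A) :
    (((elemU e he i j a)⁻¹ : Ωˣ) : Ω) = 1 - e i j a := by
  rw [elemU, dif_pos h]; rfl

theorem elemU_stSys : IsStSys (elemU e he) := by
  refine ⟨fun {i j} h a b => ?_, fun {i j k l} hij hkl hjk hil a b => ?_,
    fun {i j l} hij hjl hil a b => ?_⟩
  · ext
    simp only [Units.val_mul, elemU_val e he h, add_mul, mul_add, he, if_neg h.symm, map_add,
      one_mul, mul_one]
    abel
  · change _ * _ = _ * _
    ext
    simp only [Units.val_mul, elemU_val e he hij, elemU_val e he hkl, add_mul, mul_add, he,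
      if_neg hjk, if_neg hil.symm, one_mul, mul_one]
    abel
  · ext
    simp only [Units.val_mul, elemU_val e he hij, elemU_val e he hjl, elemU_val e he hil,
      elemU_inv_val e he hij, elemU_inv_val e he hjl,
      add_mul, mul_add, sub_mul, mul_sub, he, if_neg hij.symm, if_neg hjl.symm, if_neg hil.symm,
      one_mul, mul_one, if_true, zero_mul, mul_zero]
    abel

theorem elemU_W {i j : ℕ} (h : i ≠ j) (u : Aˣ) :
    ((stW (elemU e he) i j u : Ωˣ) : Ω) =
      1 - e i i 1 - e j j 1 + e i j u - e j i (u⁻¹ : Aˣ) := by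
  simp only [stW, Units.val_mul, elemU_val e he h, elemU_val e he h.symm, add_mul, mul_add, he,
    if_neg h.symm, if_neg h, one_mul, mul_one, if_true, zero_mul, mul_zero, mul_neg, neg_mul,
    Units.mul_inv, Units.inv_mul, map_neg]
  abel

theorem elemU_H {i j : ℕ} (h : i ≠ j) (u : Aˣ) :
    ((stH (elemU e he) i j u : Ωˣ) : Ω) = 1 + e i i (u - 1) + e j j ((u⁻¹ : Aˣ) - 1) := by
  simp only [stH, Units.val_mul, elemU_W e he h, add_mul, mul_add, sub_mul, mul_sub, he,
    if_neg h.symm, if_neg h, one_mul, mul_one, if_true, zero_mul, mul_zero, mul_neg, neg_mul,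
    map_neg, map_sub, Units.val_neg, Units.val_one, inv_neg, inv_one]
  abel

/-- Diagonal matrices supported on the first four indices. -/
def dg (d : ℕ → A) : Ω := 1 + ∑ i ∈ Finset.range 4, e i i (d i - 1)

include he in
theorem dg_mul (d d' : ℕ → A) : dg e d * dg e d' = dg e (d * d') := by
  simp only [dg, Finset.sum_range_succ, Finset.range_zero, Finset.sum_empty, zero_add,
    add_mul, mul_add, he, one_mul, mul_one, if_true, Pi.mul_apply, sub_mul, mul_sub, map_sub]
  norm_num
  abel

theorem elemU_H_dg {i j : ℕ} (h : i ≠ j) (hi : i < 4) (hj : j < 4) (u : Aˣ) :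
    ((stH (elemU e he) i j u : Ωˣ) : Ω) = dg e (fun k => (hd i j u k : Aˣ)) := by
  rw [elemU_H e he h, dg]
  interval_cases i <;> interval_cases j <;> first | omega |
    (simp [Finset.sum_range_succ, hd]; try abel)

end matrixUnits

/-- Cup product of three crossed homomorphisms followed by a trace. -/
theorem trace_cocycle {G Λ T : Type*} [Group G] [Ring Λ] [AddCommGroup T] (ρ : G →* Λ)
    (D : Fin 3 → G → Λ) (hD : ∀ j g h, D j (g * h) = ρ g * D j h + D j g * ρ h) (τ : Λ →+ T)
    (hτ : ∀ a b, τ (a * b) = τ (b * a)) :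
    IsCocycle3 (fun a b c => τ (ρ (a * b * c)⁻¹ * D 0 a * D 1 b * D 2 c)) := by
  intro a b c d
  have e1 : ρ (b * c * d)⁻¹ = ρ (a * b * c * d)⁻¹ * ρ a := by rw [← map_mul]; congr 1; group
  have e2 : ρ (a * b * c)⁻¹ = ρ d * ρ (a * b * c * d)⁻¹ := by rw [← map_mul]; congr 1; group
  have e3 : a * (b * c) * d = a * b * c * d := by group
  have e4 : a * b * (c * d) = a * b * c * d := by group
  simp only [e1, e2, e3, e4, hD]
  generalize ρ (a * b * c * d)⁻¹ = g
  have h5 : τ (ρ d * g * D 0 a * D 1 b * D 2 c) = τ (g * D 0 a * D 1 b * D 2 c * ρ d) := by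
    rw [← hτ (ρ d)]; simp only [mul_assoc]
  rw [h5]
  simp only [mul_add, add_mul, map_add, mul_assoc]
  abel

/-- The alternating sum of logarithmic derivatives. -/
def det3 {α T : Type*} [CommRing T] (L : Fin 3 → α → T) (U V W : α) : T :=
  L 0 U * L 1 V * L 2 W - L 0 U * L 1 W * L 2 V - L 0 V * L 1 U * L 2 W +
    L 0 V * L 1 W * L 2 U + L 0 W * L 1 U * L 2 V - L 0 W * L 1 V * L 2 U

theorem exists_trace_cocycle {A T : Type} [CommRing A] [CommRing T] (ψ : A →+* T)
    (δ : Fin 3 → A →+ T) (hδ : ∀ j a b, δ j (a * b) = ψ a * δ j b + δ j a * ψ b) :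
    ∃ c : St A → St A → St A → T, IsCocycle3 c ∧ ∀ U V W : Aˣ,
      symb c U V W = 4 * det3 (fun j (u : Aˣ) => ψ (u⁻¹ : Aˣ) * δ j u) U V W := by
  obtain ⟨Λ, _, _, E, τ, hE, hτ, hτE⟩ := exists_trace_ring T
  let e : ℕ → ℕ → A →+ TrivSqZeroExt Λ (Fin 3 → Λ) := fun i j =>
    { toFun := fun a => TrivSqZeroExt.inl (ψ a • E i j) + TrivSqZeroExt.inr (fun m => δ m a • E i j)
      map_zero' := by ext <;> simp
      map_add' := fun a b => by ext <;> simp [add_smul] }
  have ef : ∀ i j a, (e i j a).fst = ψ a • E i j := fun i j a => by simp [e]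
  have es : ∀ i j a m, (e i j a).snd m = δ m a • E i j := fun i j a m => by simp [e]
  have he : ∀ i j k l a b, e i j a * e k l b = if j = k then e i l (a * b) else 0 := by
    intro i j k l a b
    ext
    · rw [TrivSqZeroExt.fst_mul, ef, ef, smul_mul_smul_comm, hE]
      split_ifs
      · rw [ef, map_mul]
      · simp
    · rename_i m
      rw [TrivSqZeroExt.snd_mul, Pi.add_apply, Pi.smul_apply, Pi.smul_apply, ef, ef, es, es,
        smul_eq_mul, op_smul_eq_mul, smul_mul_smul_comm, smul_mul_smul_comm, hE]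
      split_ifs
      · rw [es, hδ, add_smul]
      · simp
  let ρ' : St A →* (TrivSqZeroExt Λ (Fin 3 → Λ)) :=
    (Units.coeHom _).comp (stLift (elemU_stSys e he))
  let ρ : St A →* Λ := (TrivSqZeroExt.fstHom ℕ Λ (Fin 3 → Λ)).toRingHom.toMonoidHom.comp ρ'
  have hρ : ∀ g, ρ g = (ρ' g).fst := fun g => rfl
  let D : Fin 3 → St A → Λ := fun m g => (ρ' g).snd m
  have hD : ∀ j g h, D j (g * h) = ρ g * D j h + D j g * ρ h := by
    intro j g h
    simp only [D, map_mul, TrivSqZeroExt.snd_mul, Pi.add_apply, Pi.smul_apply, smul_eq_mul,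
      op_smul_eq_mul, hρ]
  refine ⟨_, trace_cocycle ρ D hD τ hτ, fun U V W => ?_⟩
  have hH : ∀ i j, i ≠ j → i < 4 → j < 4 → ∀ u : Aˣ,
      ρ' (stH (xx A) i j u) = dg e (fun k => (hd i j u k : Aˣ)) := by
    intro i j h hi hj u
    rw [← elemU_H_dg e he h hi hj]
    simp only [ρ', MonoidHom.comp_apply, stH, stW, map_mul, stLift_xx _ h, stLift_xx _ h.symm,
      Units.coeHom_apply, Units.val_mul]
  have hmul : ∀ (g g' : St A) (d d' : ℕ → Aˣ), ρ' g = dg e (fun k => d k) →
      ρ' g' = dg e (fun k => d' k) → ρ' (g * g') = dg e (fun k => (d * d') k) := by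
    intro g g' d d' h h'
    rw [map_mul, h, h', dg_mul e he]
    congr 1
  have hinv : ∀ (g : St A) (d : ℕ → Aˣ), ρ' g = dg e (fun k => d k) →
      ρ' g⁻¹ = dg e (fun k => d⁻¹ k) := by
    intro g d h
    have h1 : ρ' g * dg e (fun k => d⁻¹ k) = 1 := by
      rw [h, dg_mul e he]
      simp [dg]
    calc ρ' g⁻¹ = ρ' g⁻¹ * (ρ' g * dg e (fun k => d⁻¹ k)) := by rw [h1, mul_one]
      _ = _ := by rw [← mul_assoc, ← map_mul, inv_mul_cancel, map_one, one_mul]
  have hδ1 : ∀ j, δ j 1 = 0 := fun j => by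
    have := hδ j 1 1
    simp only [mul_one, map_one, one_mul] at this
    linear_combination - this
  have hval : ∀ (a b c : St A) (d d' d'' : ℕ → Aˣ), ρ' a = dg e (fun k => d k) →
      ρ' b = dg e (fun k => d' k) → ρ' c = dg e (fun k => d'' k) →
      τ (ρ (a * b * c)⁻¹ * D 0 a * D 1 b * D 2 c) = ∑ i ∈ Finset.range 4,
        (ψ ((d i)⁻¹ : Aˣ) * δ 0 (d i)) * (ψ ((d' i)⁻¹ : Aˣ) * δ 1 (d' i)) *
          (ψ ((d'' i)⁻¹ : Aˣ) * δ 2 (d'' i)) := by
    intro a b c d d' d'' ha hb hc
    have h := hinv _ _ (hmul _ _ _ _ (hmul _ _ _ _ ha hb) hc)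
    have hf : ∀ d : ℕ → A, (dg e d).fst = 1 + ∑ i ∈ Finset.range 4, (ψ (d i) - 1) • E i i := by
      intro d
      simp only [dg, TrivSqZeroExt.fst_add, TrivSqZeroExt.fst_one, TrivSqZeroExt.fst_sum, ef]
      simp only [map_sub, map_one]
    have hs : ∀ (d : ℕ → A) m, (dg e d).snd m = ∑ i ∈ Finset.range 4, δ m (d i) • E i i := by
      intro d m
      simp only [dg, TrivSqZeroExt.snd_add, TrivSqZeroExt.snd_one, TrivSqZeroExt.snd_sum, zero_add,
        Finset.sum_apply, es]
      simp only [map_sub, hδ1, sub_zero]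
    have hm : ∀ s t : ℕ → T, (∑ i ∈ Finset.range 4, s i • E i i) *
        (∑ i ∈ Finset.range 4, t i • E i i) = ∑ i ∈ Finset.range 4, (s i * t i) • E i i := by
      intro s t
      simp only [Finset.sum_range_succ, Finset.range_zero, Finset.sum_empty, zero_add, add_mul,
        mul_add, smul_mul_smul_comm, hE]
      norm_num
    simp only [hρ, D, h, ha, hb, hc, hf, hs, add_mul, one_mul, hm, map_add, map_sum, hτE]
    rw [← Finset.sum_add_distrib]
    refine Finset.sum_congr rfl fun i _ => ?_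
    simp only [Pi.inv_apply, Pi.mul_apply, mul_inv_rev, Units.val_mul, map_mul]
    ring
  have hLinv : ∀ j (u : Aˣ), ψ u * δ j (u⁻¹ : Aˣ) = - (ψ (u⁻¹ : Aˣ) * δ j u) := by
    intro j u
    have := hδ j u (u⁻¹ : Aˣ)
    rw [Units.mul_inv, hδ1] at this
    linear_combination - this
  have h1 := hmul _ _ _ _ (hH 0 2 (by omega) (by omega) (by omega) U)
    (hH 1 3 (by omega) (by omega) (by omega) U)
  have h2 := hmul _ _ _ _ (hH 0 1 (by omega) (by omega) (by omega) V)
    (hH 2 3 (by omega) (by omega) (by omega) V)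
  have h3 := hmul _ _ _ _ (hH 0 1 (by omega) (by omega) (by omega) W)
    (hH 3 2 (by omega) (by omega) (by omega) W)
  simp only [symb, tor, g1, g2, g3]
  rw [hval _ _ _ _ _ _ h1 h2 h3, hval _ _ _ _ _ _ h1 h3 h2, hval _ _ _ _ _ _ h2 h1 h3,
    hval _ _ _ _ _ _ h2 h3 h1, hval _ _ _ _ _ _ h3 h1 h2, hval _ _ _ _ _ _ h3 h2 h1]
  simp only [Finset.sum_range_succ, Finset.range_zero, Finset.sum_empty, zero_add, hd,
    Pi.mul_apply, det3]
  norm_num
  simp only [hLinv]
  ring

end Crest.Agent.R171
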